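import Vale.Agent.P091.H413.EDefs

/-! # Leaf data for Lemma E

Masses on the leaves of the binary tree of depth `n` (leaves = nodes of length `n`), changing with
the level by activation and removal, give an `ESys` with `Ok n`. -/

open Finset Vale.Agent.P091.H413

namespace Vale.Agent.P091.T.H587

/-! ## averages over the descendants -/

/-- complex version of `Lf` -/
noncomputable def Lc : ℕ → (Node → ℂ) → Node → ℂ
  | 0, F, v => F v
  | m + 1, F, v => (Lc m F (true :: v) + Lc m F (false :: v)) / 2

theorem Lf_add (m : ℕ) (F G : Node → ℝ) (v : Node) :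
    Lf m (fun x => F x + G x) v = Lf m F v + Lf m G v := by
  induction m generalizing v with
  | zero => rfl
  | succ m ih => simp only [Lf, ih]; ring

theorem Lf_smul (m : ℕ) (c : ℝ) (F : Node → ℝ) (v : Node) :
    Lf m (fun x => c * F x) v = c * Lf m F v := by
  induction m generalizing v with
  | zero => rfl
  | succ m ih => simp only [Lf, ih]; ring

theorem Lf_const (m : ℕ) (c : ℝ) (v : Node) : Lf m (fun _ => c) v = c := by
  induction m generalizing v with
  | zero => rfl
  | succ m ih => simp only [Lf, ih]; ring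

theorem Lf_sub (m : ℕ) (F G : Node → ℝ) (v : Node) :
    Lf m (fun x => F x - G x) v = Lf m F v - Lf m G v := by
  induction m generalizing v with
  | zero => rfl
  | succ m ih => simp only [Lf, ih]; ring

theorem Lf_sum {ι : Type*} (m : ℕ) (s : Finset ι) (F : ι → Node → ℝ) (v : Node) :
    Lf m (fun x => ∑ i ∈ s, F i x) v = ∑ i ∈ s, Lf m (F i) v := by
  induction m generalizing v with
  | zero => rfl
  | succ m ih =>
    simp only [Lf, ih]
    rw [← sum_add_distrib, sum_div]

theorem Lf_mono (m : ℕ) {F G : Node → ℝ} (v : Node)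
    (h : ∀ x : Node, x.length = m + v.length → F x ≤ G x) : Lf m F v ≤ Lf m G v := by
  induction m generalizing v with
  | zero => exact h v (by omega)
  | succ m ih =>
    simp only [Lf]
    have h1 := ih (true :: v) (fun x hx => h x (by simp only [List.length_cons] at hx; omega))
    have h2 := ih (false :: v) (fun x hx => h x (by simp only [List.length_cons] at hx; omega))
    linarith

theorem Lf_congr (m : ℕ) {F G : Node → ℝ} (v : Node)
    (h : ∀ x : Node, x.length = m + v.length → F x = G x) : Lf m F v = Lf m G v :=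
  le_antisymm (Lf_mono m v fun x hx => (h x hx).le) (Lf_mono m v fun x hx => (h x hx).ge)

theorem Lf_nonneg (m : ℕ) {F : Node → ℝ} (v : Node)
    (h : ∀ x : Node, x.length = m + v.length → 0 ≤ F x) : 0 ≤ Lf m F v := by
  have := Lf_mono m (F := fun _ => 0) (G := F) v h
  rwa [Lf_const] at this

theorem Lf_le_of (m : ℕ) {F : Node → ℝ} {c : ℝ} (v : Node)
    (h : ∀ x : Node, x.length = m + v.length → F x ≤ c) : Lf m F v ≤ c := by
  have := Lf_mono m (F := F) (G := fun _ => c) v h
  rwa [Lf_const] at this

theorem Lc_add (m : ℕ) (F G : Node → ℂ) (v : Node) :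
    Lc m (fun x => F x + G x) v = Lc m F v + Lc m G v := by
  induction m generalizing v with
  | zero => rfl
  | succ m ih => simp only [Lc, ih]; ring

theorem Lc_sub (m : ℕ) (F G : Node → ℂ) (v : Node) :
    Lc m (fun x => F x - G x) v = Lc m F v - Lc m G v := by
  induction m generalizing v with
  | zero => rfl
  | succ m ih => simp only [Lc, ih]; ring

theorem Lc_mul_left (m : ℕ) (c : ℂ) (F : Node → ℂ) (v : Node) :
    Lc m (fun x => c * F x) v = c * Lc m F v := by
  induction m generalizing v with
  | zero => rfl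
  | succ m ih => simp only [Lc, ih]; ring

theorem Lc_mul_right (m : ℕ) (c : ℂ) (F : Node → ℂ) (v : Node) :
    Lc m (fun x => F x * c) v = Lc m F v * c := by
  induction m generalizing v with
  | zero => rfl
  | succ m ih => simp only [Lc, ih]; ring

theorem Lc_sum {ι : Type*} (m : ℕ) (s : Finset ι) (F : ι → Node → ℂ) (v : Node) :
    Lc m (fun x => ∑ i ∈ s, F i x) v = ∑ i ∈ s, Lc m (F i) v := by
  induction m generalizing v with
  | zero => rfl
  | succ m ih =>
    simp only [Lc, ih]
    rw [← sum_add_distrib, sum_div]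

theorem Lc_congr (m : ℕ) {F G : Node → ℂ} (v : Node)
    (h : ∀ x : Node, x.length = m + v.length → F x = G x) : Lc m F v = Lc m G v := by
  induction m generalizing v with
  | zero => exact h v (by omega)
  | succ m ih =>
    simp only [Lc]
    rw [ih (true :: v) (fun x hx => h x (by simp only [List.length_cons] at hx; omega)),
      ih (false :: v) (fun x hx => h x (by simp only [List.length_cons] at hx; omega))]

theorem norm_Lc_le (m : ℕ) (F : Node → ℂ) (v : Node) : ‖Lc m F v‖ ≤ Lf m (fun x => ‖F x‖) v := by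
  induction m generalizing v with
  | zero => exact le_rfl
  | succ m ih =>
    simp only [Lc, Lf]
    rw [norm_div, Complex.norm_ofNat]
    have h1 := ih (true :: v)
    have h2 := ih (false :: v)
    have h3 := norm_add_le (Lc m F (true :: v)) (Lc m F (false :: v))
    gcongr
    linarith

theorem norm_Lc_le_of (m : ℕ) {F : Node → ℂ} {G : Node → ℝ} (v : Node)
    (h : ∀ x : Node, x.length = m + v.length → ‖F x‖ ≤ G x) : ‖Lc m F v‖ ≤ Lf m G v :=
  (norm_Lc_le m F v).trans (Lf_mono m v h)

theorem max_Lf_le (m : ℕ) (F : Node → ℝ) (v : Node) :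
    max (Lf m F v) 0 ≤ Lf m (fun x => max (F x) 0) v :=
  max_le (Lf_mono m v fun _ _ => le_max_left _ _) (Lf_nonneg m v fun _ _ => le_max_right _ _)

/-- Cauchy-Schwarz for the averages -/
theorem Lf_cs (m : ℕ) (F G : Node → ℝ) (v : Node)
    (hF : ∀ x : Node, x.length = m + v.length → 0 ≤ F x) :
    Lf m (fun x => F x * G x) v ^ 2 ≤ Lf m F v * Lf m (fun x => F x * G x ^ 2) v := by
  have key : ∀ t : ℝ, 0 ≤ Lf m F v * (t * t) + (-2 * Lf m (fun x => F x * G x) v) * t
      + Lf m (fun x => F x * G x ^ 2) v := by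
    intro t
    have h1 : Lf m (fun x => (t * t) * F x + ((-2 * t) * (F x * G x) + F x * G x ^ 2)) v
        = (t * t) * Lf m F v + ((-2 * t) * Lf m (fun x => F x * G x) v
          + Lf m (fun x => F x * G x ^ 2) v) := by
      rw [Lf_add, Lf_smul, Lf_add, Lf_smul]
    have h2 : 0 ≤ Lf m (fun x => (t * t) * F x + ((-2 * t) * (F x * G x) + F x * G x ^ 2)) v := by
      refine Lf_nonneg m v fun x hx => ?_
      have := hF x hx
      have : (t * t) * F x + ((-2 * t) * (F x * G x) + F x * G x ^ 2) = F x * (t - G x) ^ 2 := by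
        ring
      rw [this]
      positivity
    nlinarith
  have hd := discrim_le_zero key
  unfold discrim at hd
  nlinarith

/-! ## exchange of the sum over the levels and the average -/

theorem S_swap (n : ℕ) (F : ℕ → Node → ℝ) (m : ℕ) (v : Node) (hv : v.length + m = n) :
    S m (fun w => Lf (n - w.length) (F w.length) w) v =
      Lf m (fun x => ∑ j ∈ Ico v.length n, F j x) v := by
  induction m generalizing v with
  | zero =>
    have : n = v.length := by omega
    subst this
    simp [S, Lf]
  | succ m ih =>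
    have e1 : S (m + 1) (fun w => Lf (n - w.length) (F w.length) w) v =
        Lf (n - v.length) (F v.length) v +
          (S m (fun w => Lf (n - w.length) (F w.length) w) (true :: v) +
            S m (fun w => Lf (n - w.length) (F w.length) w) (false :: v)) / 2 := rfl
    have e2 : n - v.length = m + 1 := by omega
    have e3 : Lf (m + 1) (fun x => ∑ j ∈ Ico v.length n, F j x) v =
        Lf (m + 1) (F v.length) v
          + Lf (m + 1) (fun x => ∑ j ∈ Ico (v.length + 1) n, F j x) v := by
      rw [← Lf_add]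
      refine Lf_congr _ _ fun x _ => ?_
      rw [← sum_Ioo_add_eq_sum_Ico (by omega : v.length < n)] 
      rw [add_comm]
      rfl
    rw [e1, e3, e2, ih (true :: v) (by simp only [List.length_cons]; omega),
      ih (false :: v) (by simp only [List.length_cons]; omega)]
    simp only [List.length_cons, Lf]

theorem S_swap0 (n : ℕ) (F : ℕ → Node → ℝ) :
    S n (fun w => Lf (n - w.length) (F w.length) w) [] =
      Lf n (fun x => ∑ j ∈ range n, F j x) [] := by
  rw [S_swap n F n [] (by simp)]
  simp

/-! ## leaf data -/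

/-- Masses and coefficients on the leaves `x`, `|x| = n`, of the binary tree, AFTER the
modifications of the level `j`: `a k j x` mass of the class `k` (activated at level `act k`),
`c k q j x` its coefficient on the value `q`; `g q j y` mass of the value `q` at the leaf `y`,
`e k y` letter of the class `k`. -/
structure LeafData (K Q : Type) [Fintype K] [Fintype Q] (n : ℕ) where
  act : K → ℕ
  a : K → ℕ → Node → ℝ
  c : K → Q → ℕ → Node → ℂ
  g : Q → ℕ → Node → ℝ
  e : K → Node → ℂ
  a_nonneg : ∀ k j x, 0 ≤ a k j x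
  a_act : ∀ k j x, j < act k → a k j x = 0
  a_sum : ∀ j x, x.length = n → ∑ k, a k j x ≤ 1
  c_le : ∀ k q j x, x.length = n → ‖c k q j x‖ ≤ a k j x
  a_anti : ∀ k j x, x.length = n → act k ≤ j → a k (j + 1) x ≤ a k j x
  c_jump : ∀ k q j x, x.length = n → act k ≤ j →
    ‖c k q j x - c k q (j + 1) x‖ ≤ a k j x - a k (j + 1) x
  g_nonneg : ∀ q j y, 0 ≤ g q j y
  g_anti : ∀ q j y, y.length = n → g q (j + 1) y ≤ g q j y
  e_le : ∀ k y, ‖e k y‖ ≤ 1

namespace LeafData

variable {K Q : Type} [Fintype K] [Fintype Q] {n : ℕ} (d : LeafData K Q n)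

/-- the system of node averages -/
noncomputable def sys : ESys K Q where
  α k v := Lf (n - v.length) (d.a k v.length) v
  α' k v := Lf (n - v.length) (d.a k (v.length - 1)) v
  A k q v := Lc (n - v.length) (d.c k q v.length) v
  A' k q v := Lc (n - v.length) (d.c k q (v.length - 1)) v
  G q v := Lf (n - v.length) (d.g q v.length) v
  G' q v := Lf (n - v.length) (d.g q (v.length - 1)) v
  B k q v := Lc (n - v.length) (fun y => (d.g q v.length y : ℂ) * d.e k y) v
  B' k q v := Lc (n - v.length) (fun y => (d.g q (v.length - 1) y : ℂ) * d.e k y) v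

theorem Lf_step (F : ℕ → Node → ℝ) (v : Node) (hv : v.length < n) :
    Lf (n - v.length) (F v.length) v =
      (Lf (n - (true :: v).length) (F ((true :: v).length - 1)) (true :: v) +
        Lf (n - (false :: v).length) (F ((false :: v).length - 1)) (false :: v)) / 2 := by
  have e2 : n - v.length = (n - (v.length + 1)) + 1 := by omega
  rw [e2]
  simp only [Lf, List.length_cons, Nat.add_sub_cancel]

theorem Lc_step (F : ℕ → Node → ℂ) (v : Node) (hv : v.length < n) :
    Lc (n - v.length) (F v.length) v =
      (Lc (n - (true :: v).length) (F ((true :: v).length - 1)) (true :: v) +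
        Lc (n - (false :: v).length) (F ((false :: v).length - 1)) (false :: v)) / 2 := by
  have e2 : n - v.length = (n - (v.length + 1)) + 1 := by omega
  rw [e2]
  simp only [Lc, List.length_cons, Nat.add_sub_cancel]

/-- **Leaf data satisfy the hypotheses of Lemma E** as soon as the averages of the total `y`-mass
(before the modifications of the node) are at most `2`. -/
theorem ok (hg : ∀ v : Node, v.length ≤ n →
    Lf (n - v.length) (fun y => ∑ q, d.g q (v.length - 1) y) v ≤ 2) : d.sys.Ok n where
  α0 k v hv := Lf_nonneg _ _ fun x _ => d.a_nonneg k _ x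
  α0' k v hv := Lf_nonneg _ _ fun x _ => d.a_nonneg k _ x
  αsum v hv := by
    simp only [sys]
    rw [← Lf_sum]
    exact Lf_le_of _ _ fun x hx => d.a_sum _ x (by omega)
  αsum' v hv := by
    simp only [sys]
    rw [← Lf_sum]
    exact Lf_le_of _ _ fun x hx => d.a_sum _ x (by omega)
  αm k v hv := Lf_step (d.a k) v hv
  A1 k q v hv := norm_Lc_le_of _ _ fun x hx => d.c_le k q _ x (by omega)
  A1' k q v hv := norm_Lc_le_of _ _ fun x hx => d.c_le k q _ x (by omega)
  Am k q v hv := Lc_step (d.c k q) v hv
  G0 q v hv := Lf_nonneg _ _ fun x _ => d.g_nonneg q _ x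
  G0' q v hv := Lf_nonneg _ _ fun x _ => d.g_nonneg q _ x
  Gsum v hv := by
    simp only [sys]
    rw [← Lf_sum]
    refine (Lf_mono _ _ fun x hx => ?_).trans (hg v hv.le)
    refine sum_le_sum fun q _ => ?_
    rcases Nat.eq_zero_or_pos v.length with h0 | h0
    · rw [h0]
    · have := d.g_anti q (v.length - 1) x (by omega)
      rwa [Nat.sub_add_cancel h0] at this
  Gsum' v hv := by
    simp only [sys]
    rw [← Lf_sum]
    exact hg v hv
  Gm q v hv := Lf_step (d.g q) v hv
  B1 k q v hv := norm_Lc_le_of _ _ fun x hx => by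
    rw [norm_mul, Complex.norm_real, Real.norm_of_nonneg (d.g_nonneg q _ x)]
    exact mul_le_of_le_one_right (d.g_nonneg q _ x) (d.e_le k x)
  B1' k q v hv := norm_Lc_le_of _ _ fun x hx => by
    rw [norm_mul, Complex.norm_real, Real.norm_of_nonneg (d.g_nonneg q _ x)]
    exact mul_le_of_le_one_right (d.g_nonneg q _ x) (d.e_le k x)
  Bm k q v hv := Lc_step (fun j y => (d.g q j y : ℂ) * d.e k y) v hv
  Gr q v hv := Lf_mono _ _ fun x hx => by
    rcases Nat.eq_zero_or_pos v.length with h0 | h0
    · rw [h0]
    · have := d.g_anti q (v.length - 1) x (by omega)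
      rwa [Nat.sub_add_cancel h0] at this
  xr k v hv := by
    rcases Nat.eq_zero_or_pos v.length with h0 | h0
    · right
      simp only [sys, h0, Nat.zero_sub, sub_self, norm_zero, le_refl, implies_true, and_self]
    rcases Nat.lt_or_ge (v.length - 1) (d.act k) with h1 | h1
    · left
      simp only [sys]
      refine le_antisymm (Lf_le_of _ _ fun x _ => (d.a_act k _ x h1).le) ?_
      exact Lf_nonneg _ _ fun x _ => d.a_nonneg k _ x
    · right
      have e1 : v.length - 1 + 1 = v.length := Nat.sub_add_cancel h0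
      refine ⟨fun q => ?_, ?_, fun q => ?_⟩
      · simp only [sys]
        rw [← Lc_sub, ← Lf_sub]
        refine norm_Lc_le_of _ _ fun x hx => ?_
        have := d.c_jump k q (v.length - 1) x (by omega) h1
        rwa [e1] at this
      · simp only [sys]
        refine Lf_mono _ _ fun x hx => ?_
        have := d.a_anti k (v.length - 1) x (by omega) h1
        rwa [e1] at this
      · simp only [sys]
        rw [← Lc_sub, ← Lf_sub]
        refine norm_Lc_le_of _ _ fun x hx => ?_
        have h2 := d.g_anti q (v.length - 1) x (by omega)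
        rw [e1] at h2
        have e3 : (d.g q (v.length - 1) x : ℂ) * d.e k x - (d.g q v.length x : ℂ) * d.e k x =
            ((d.g q (v.length - 1) x - d.g q v.length x : ℝ) : ℂ) * d.e k x := by
          push_cast; ring
        rw [e3, norm_mul, Complex.norm_real, Real.norm_of_nonneg (by linarith)]
        exact mul_le_of_le_one_right (by linarith) (d.e_le k x)

/-- the removed `x`-mass -/
theorem removed_le {m : ℝ} (hm : ∀ x : Node, x.length = n →
      ∑ j ∈ range n, ∑ k, max (d.a k (j - 1) x - d.a k j x) 0 ≤ m) :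
    S n (fun v => ∑ k, max (d.sys.α' k v - d.sys.α k v) 0) [] ≤ m := by
  have h1 : S n (fun v => ∑ k, max (d.sys.α' k v - d.sys.α k v) 0) [] ≤
      S n (fun w => Lf (n - w.length)
        ((fun j x => ∑ k, max (d.a k (j - 1) x - d.a k j x) 0) w.length) w) [] := by
    refine S_mono n [] fun w _ => ?_
    simp only [sys]
    rw [Lf_sum]
    refine sum_le_sum fun k _ => ?_
    rw [← Lf_sub]
    exact max_Lf_le _ _ _
  refine h1.trans ?_
  rw [S_swap0 n (fun j x => ∑ k, max (d.a k (j - 1) x - d.a k j x) 0)]
  exact Lf_le_of _ _ fun x hx => hm x (by simpa using hx)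

/-- the removed `y`-mass -/
theorem removed_y_le {m : ℝ} (hm : ∀ y : Node, y.length = n →
      ∑ j ∈ range n, ∑ q, (d.g q (j - 1) y - d.g q j y) ≤ m) :
    S n (fun v => ∑ q, (d.sys.G' q v - d.sys.G q v)) [] ≤ m := by
  have h1 : S n (fun v => ∑ q, (d.sys.G' q v - d.sys.G q v)) [] =
      S n (fun w => Lf (n - w.length)
        ((fun j y => ∑ q, (d.g q (j - 1) y - d.g q j y)) w.length) w) [] := by
    congr 1
    funext w
    simp only [sys]
    rw [Lf_sum]
    refine sum_congr rfl fun k _ => ?_
    rw [← Lf_sub]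
  rw [h1, S_swap0 n (fun j y => ∑ q, (d.g q (j - 1) y - d.g q j y))]
  exact Lf_le_of _ _ fun x hx => hm x (by simpa using hx)

/-- Jensen: the energy of `τ` is at most the average of the squares over the leaves -/
theorem alpha_tau_le (k : K) (v : Node) (hv : v.length ≤ n) (T : Node → ℝ)
    (hT : ∀ x : Node, x.length = n →
      ‖∑ q, d.c k q v.length x * d.sys.dB k q v‖ ≤ d.a k v.length x * T x) :
    d.sys.α k v * ‖d.sys.τ k v‖ ^ 2 ≤
      Lf (n - v.length) (fun x => d.a k v.length x * T x ^ 2) v := by
  have ha0 : 0 ≤ d.sys.α k v := Lf_nonneg _ _ fun x _ => d.a_nonneg k _ x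
  have hR : 0 ≤ Lf (n - v.length) (fun x => d.a k v.length x * T x ^ 2) v :=
    Lf_nonneg _ _ fun x _ => mul_nonneg (d.a_nonneg k _ x) (sq_nonneg _)
  rcases ha0.eq_or_lt with h0 | h0
  · rw [← h0, zero_mul]; exact hR
  have h1 : (d.sys.α k v : ℂ) * d.sys.τ k v =
      Lc (n - v.length) (fun x => ∑ q, d.c k q v.length x * d.sys.dB k q v) v := by
    unfold ESys.τ
    rw [mul_sum, Lc_sum]
    refine sum_congr rfl fun q _ => ?_
    rw [Lc_mul_right]
    have : (d.sys.α k v : ℂ) ≠ 0 := by exact_mod_cast h0.ne'
    have e1 : Lc (n - v.length) (fun x => d.c k q v.length x) v = d.sys.A k q v := rfl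
    rw [e1]
    field_simp
  have h2 : d.sys.α k v * ‖d.sys.τ k v‖ ≤
      Lf (n - v.length) (fun x => d.a k v.length x * T x) v := by
    have : ‖(d.sys.α k v : ℂ) * d.sys.τ k v‖ = d.sys.α k v * ‖d.sys.τ k v‖ := by
      rw [norm_mul, Complex.norm_real, Real.norm_of_nonneg ha0]
    rw [← this, h1]
    exact norm_Lc_le_of _ _ fun x hx => hT x (by omega)
  have h3 := Lf_cs (n - v.length) (d.a k v.length) T v (fun x _ => d.a_nonneg k _ x)
  have h4 : (d.sys.α k v * ‖d.sys.τ k v‖) ^ 2 ≤
      d.sys.α k v * Lf (n - v.length) (fun x => d.a k v.length x * T x ^ 2) v :=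
    (pow_le_pow_left₀ (by positivity) h2 2).trans h3
  have h5 : d.sys.α k v * (d.sys.α k v * ‖d.sys.τ k v‖ ^ 2) ≤
      d.sys.α k v * Lf (n - v.length) (fun x => d.a k v.length x * T x ^ 2) v := by
    calc _ = (d.sys.α k v * ‖d.sys.τ k v‖) ^ 2 := by ring
      _ ≤ _ := h4
  exact le_of_mul_le_mul_left h5 h0

/-- `z` on departure: average of the biases of the leaves of the class -/
theorem z_le (k : K) (v : Node) (hv : v.length ≤ n) (M : Node → ℝ)
    (hM : ∀ x : Node, x.length = n →
      ‖∑ q, d.c k q v.length x * d.sys.B k q v‖ ≤ d.a k v.length x * M x) :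
    ‖d.sys.z k v‖ ≤ Lf (n - v.length) (fun x => d.a k v.length x * M x) v := by
  have h1 : d.sys.z k v =
      Lc (n - v.length) (fun x => ∑ q, d.c k q v.length x * d.sys.B k q v) v := by
    unfold ESys.z
    rw [Lc_sum]
    exact sum_congr rfl fun q _ => (Lc_mul_right _ _ _ _).symm
  rw [h1]
  exact norm_Lc_le_of _ _ fun x hx => hM x (by omega)

/-- `z` on arrival -/
theorem z'_le (k : K) (v : Node) (hv : v.length ≤ n) (M : Node → ℝ)
    (hM : ∀ x : Node, x.length = n →
      ‖∑ q, d.c k q (v.length - 1) x * d.sys.B' k q v‖ ≤ d.a k (v.length - 1) x * M x) :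
    ‖d.sys.z' k v‖ ≤ Lf (n - v.length) (fun x => d.a k (v.length - 1) x * M x) v := by
  have h1 : d.sys.z' k v =
      Lc (n - v.length) (fun x => ∑ q, d.c k q (v.length - 1) x * d.sys.B' k q v) v := by
    unfold ESys.z'
    rw [Lc_sum]
    exact sum_congr rfl fun q _ => (Lc_mul_right _ _ _ _).symm
  rw [h1]
  exact norm_Lc_le_of _ _ fun x hx => hM x (by omega)

/-- averages with a small bad part -/
theorem Lf_bias_le {m : ℕ} {v : Node} {a M : Node → ℝ} {δ C : ℝ} (hδ : 0 ≤ δ)
    (ha : ∀ x, 0 ≤ a x) (hM : ∀ x : Node, x.length = m + v.length → M x ≤ C)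
    (hC : 0 ≤ C)
    (hbad : Lf m (fun x => if M x ≤ δ then 0 else a x) v ≤ δ * Lf m a v) :
    Lf m (fun x => a x * M x) v ≤ (1 + C) * δ * Lf m a v := by
  have h1 : Lf m (fun x => a x * M x) v ≤
      Lf m (fun x => δ * a x + C * (if M x ≤ δ then 0 else a x)) v := by
    refine Lf_mono _ _ fun x hx => ?_
    have hx1 := ha x
    split_ifs with h
    · nlinarith
    · have := hM x hx
      nlinarith [mul_nonneg hδ hx1]
  refine h1.trans ?_
  rw [Lf_add, Lf_smul, Lf_smul]
  nlinarith [mul_le_mul_of_nonneg_left hbad hC]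

/-- Markov: the classes whose bad part is large have small total mass -/
theorem bad_mass_le (m : ℕ) (v : Node) (a : K → Node → ℝ) (w : K → Node → ℝ) (bad : K → Prop)
    [∀ k, Decidable (bad k)] {δ ε : ℝ} (hδ : 0 < δ) (hw : ∀ k x, 0 ≤ w k x)
    (hbad : ∀ k, bad k → δ * Lf m (a k) v ≤ Lf m (w k) v)
    (hε : Lf m (fun x => ∑ k, w k x) v ≤ ε) :
    ∑ k, (if bad k then Lf m (a k) v else 0) ≤ ε / δ := by
  rw [le_div_iff₀ hδ, sum_mul]
  refine le_trans (sum_le_sum (g := fun k => Lf m (w k) v) fun k _ => ?_) ?_
  · split_ifs with h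
    · have := hbad k h
      linarith
    · rw [zero_mul]
      exact Lf_nonneg _ _ fun x _ => hw k x
  · rw [← Lf_sum]
    exact hε

/-- the input `b` of Lemma E from the weights of the bad classes at the leaves -/
theorem bad_energy_le (good : K → Node → Prop) [∀ k v, Decidable (good k v)]
    (T : K → Node → Node → ℝ)
    (hT : ∀ k (v x : Node), v.length < n → x.length = n → ¬ good k v →
      ‖∑ q, d.c k q v.length x * d.sys.dB k q v‖ ≤ d.a k v.length x * T k v x) :
    S n (fun v => ∑ k, if good k v then 0 else d.sys.α k v * ‖d.sys.τ k v‖ ^ 2) [] ≤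
      S n (fun v => Lf (n - v.length)
        (fun x => ∑ k, if good k v then 0 else d.a k v.length x * T k v x ^ 2) v) [] := by
  refine S_mono n [] fun v hv => ?_
  simp only [List.length_nil, add_zero] at hv
  rw [Lf_sum]
  refine sum_le_sum fun k _ => ?_
  by_cases h : good k v
  · simp only [h, if_true]
    rw [Lf_const]
  · simp only [h, if_false]
    exact d.alpha_tau_le k v hv.le (T k v) fun x hx => hT k v x hv hx h

end LeafData

end Vale.Agent.P091.T.H587
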