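import Vale.Agent.P091.T.H587.Leaf
import Vale.Agent.P091.LE.H219.Energy

/-! # The `y`-energy of one epoch from the value information

`w j y` = alive weight of the leaf `y` after the exits of the level `j` (nonincreasing in `j`),
`P q y` = law of the value given `y`; the mass of the value `q` at the leaf `y` is
`w j y * P q y`. -/

open Finset Real Vale.Agent.P091.H413

namespace Vale.Agent.P091.T.H587

/-- tangent inequality for `t log t` -/
theorem psi_sub_le {a b : ℝ} (ha : 0 ≤ a) (hab : a ≤ b) :
    b * log b - a * log a ≤ (b - a) * (1 + log b) := by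
  rcases ha.eq_or_lt with h | h
  · subst h
    rcases hab.eq_or_lt with h1 | h1
    · rw [← h1]; simp
    · have : 0 ≤ b := h1.le
      simp only [zero_mul, sub_zero]
      nlinarith
  · have hb : 0 < b := h.trans_le hab
    have h1 : log (b / a) ≤ b / a - 1 := log_le_sub_one_of_pos (by positivity)
    have h2 : a * log (b / a) ≤ b - a := by
      calc a * log (b / a) ≤ a * (b / a - 1) := mul_le_mul_of_nonneg_left h1 h.le
        _ = b - a := by field_simp
    rw [log_div hb.ne' h.ne'] at h2
    linarith

/-- Gibbs: `∑ p log G ≤ ∑ p log p + log g` for `∑ G ≤ g`, `∑ p = 1` -/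
theorem gibbs_mass {Q : Type*} [Fintype Q] (p G : Q → ℝ) {g : ℝ} (hp : ∀ q, 0 ≤ p q)
    (hp1 : ∑ q, p q = 1) (hG : ∀ q, p q ≠ 0 → 0 < G q) (hG0 : ∀ q, 0 ≤ G q) (hg : ∑ q, G q ≤ g) :
    ∑ q, p q * log (G q) ≤ ∑ q, p q * log (p q) + log g := by
  have hg0 : 0 < g := by
    have : ∃ q, p q ≠ 0 := by
      by_contra hcon
      push Not at hcon
      simp [hcon] at hp1
    obtain ⟨q, hq⟩ := this
    exact (hG q hq).trans_le ((single_le_sum (fun q _ => hG0 q) (mem_univ q)).trans hg)
  have h1 : ∀ q, p q * log (G q) - p q * log (p q) - p q * log g ≤ G q / g - p q := by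
    intro q
    rcases (hp q).eq_or_lt with h | h
    · rw [← h]
      simp only [zero_mul, sub_zero]
      exact div_nonneg (hG0 q) hg0.le
    · have hGq := hG q h.ne'
      have h2 : log (G q / g / p q) ≤ G q / g / p q - 1 :=
        log_le_sub_one_of_pos (by positivity)
      rw [log_div (by positivity) h.ne', log_div hGq.ne' hg0.ne'] at h2
      have h3 := mul_le_mul_of_nonneg_left h2 h.le
      have e : p q * (G q / g / p q - 1) = G q / g - p q := by field_simp
      rw [e] at h3
      linarith
  have h2 := sum_le_sum fun q (_ : q ∈ univ) => h1 q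
  simp only [sum_sub_distrib] at h2
  have h3 : ∑ q, p q * log g = log g := by rw [← sum_mul, hp1, one_mul]
  have h4 : ∑ q, G q / g ≤ 1 := by
    rw [← sum_div]
    exact div_le_one_of_le₀ hg hg0.le
  linarith

theorem Lf_mono_app (m : ℕ) {F G : Node → ℝ} (v : Node)
    (h : ∀ u : Node, u.length = m → F (u ++ v) ≤ G (u ++ v)) : Lf m F v ≤ Lf m G v := by
  induction m generalizing v with
  | zero => exact h [] rfl
  | succ m ih =>
    simp only [Lf]
    have h1 := ih (true :: v) (fun u hu => by
      have := h (u ++ [true]) (by simp [hu])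
      simpa using this)
    have h2 := ih (false :: v) (fun u hu => by
      have := h (u ++ [false]) (by simp [hu])
      simpa using this)
    linarith

theorem le_Lf_app {F : Node → ℝ} (hF : ∀ x, 0 ≤ F x) (u v : Node) :
    F (u ++ v) ≤ 2 ^ u.length * Lf u.length F v := by
  induction u using List.reverseRecOn generalizing v with
  | nil => simp [Lf]
  | append_singleton u b ih =>
    have h1 := ih (b :: v)
    have e1 : u ++ [b] ++ v = u ++ (b :: v) := by simp
    have e2 : (u ++ [b]).length = u.length + 1 := by simp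
    rw [e1, e2]
    refine h1.trans ?_
    have h2 : 0 ≤ Lf u.length F (true :: v) := Lf_nonneg _ _ fun x _ => hF x
    have h3 : 0 ≤ Lf u.length F (false :: v) := Lf_nonneg _ _ fun x _ => hF x
    simp only [Lf]
    have h4 : (0 : ℝ) < 2 ^ u.length := by positivity
    rw [pow_succ]
    cases b
    · nlinarith
    · nlinarith

/-- `w (j-1) - w j` telescopes -/
theorem sum_pred_sub (n : ℕ) (w : ℕ → ℝ) :
    ∑ j ∈ range n, (w (j - 1) - w j) = w 0 - w (n - 1) := by
  induction n with
  | zero => simp
  | succ n ih =>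
    rw [sum_range_succ, ih]
    rcases n with _ | n
    · simp
    · simp

/-- **The `y`-energy of one epoch from the value information** of its starting law. -/
theorem y_energy_info {Q : Type} [Fintype Q] (n : ℕ) (w : ℕ → Node → ℝ) (P : Q → Node → ℝ)
    (r : Q → ℝ) (hw : ∀ j y, 0 ≤ w j y) (hwa : ∀ j y, y.length = n → w (j + 1) y ≤ w j y)
    (hP : ∀ q y, 0 ≤ P q y) (hP1 : ∀ y : Node, y.length = n → ∑ q, P q y = 1)
    (hg : ∀ v : Node, v.length ≤ n → Lf (n - v.length) (w (v.length - 1)) v ≤ 2)
    (hr0 : ∀ q, 0 ≤ r q) (hr : ∀ q y, y.length = n → w 0 y * P q y ≠ 0 → 0 < r q)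
    (hr1 : ∑ q, r q ≤ 1) :
    S n (fun v => ∑ q, ((Lf (n - (true :: v).length)
            (fun y => w ((true :: v).length - 1) y * P q y) (true :: v) -
          Lf (n - (false :: v).length)
            (fun y => w ((false :: v).length - 1) y * P q y) (false :: v)) / 2) ^ 2 /
        Lf (n - v.length) (fun y => w v.length y * P q y) v) [] ≤
      2 * ((1 + log 2) * Lf n (w 0) [] - Lf n (w 0) [] * log (Lf n (w 0) []) +
        Lf n (fun y => w 0 y * ∑ q, P q y * (log (P q y) - log (r q))) []) := by
  set Gd : Q → Node → ℝ := fun q v => Lf (n - v.length) (fun y => w v.length y * P q y) v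
    with hGd
  set Ga : Q → Node → ℝ := fun q v => Lf (n - v.length) (fun y => w (v.length - 1) y * P q y) v
    with hGa
  have hGa0 : ∀ q v, 0 ≤ Ga q v := fun q v =>
    Lf_nonneg _ _ fun y _ => mul_nonneg (hw _ _) (hP _ _)
  have hGd0 : ∀ q v, 0 ≤ Gd q v := fun q v =>
    Lf_nonneg _ _ fun y _ => mul_nonneg (hw _ _) (hP _ _)
  have hwm : ∀ j y, y.length = n → w j y ≤ w (j - 1) y := by
    intro j y hy
    rcases j with _ | j
    · exact le_rfl
    · simpa using hwa j y hy
  have hda : ∀ q v, v.length ≤ n → Gd q v ≤ Ga q v := fun q v hv =>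
    Lf_mono _ _ fun y hy => mul_le_mul_of_nonneg_right (hwm _ y (by omega)) (hP _ _)
  have hsum : ∀ v, v.length ≤ n → ∑ q, Ga q v ≤ 2 := by
    intro v hv
    simp only [hGa]
    rw [← Lf_sum]
    refine le_trans (le_of_eq ?_) (hg v hv)
    refine Lf_congr _ _ fun y hy => ?_
    rw [← mul_sum, hP1 y (by omega), mul_one]
  have hlog2 : (0 : ℝ) ≤ log 2 := log_nonneg (by norm_num)
  -- the general identity
  have hmain := Vale.Agent.P091.LE.H219.y_energy n Gd Ga []
    (fun q v _ => hGa0 q v)
    (fun q v hv => LeafData.Lf_step (fun j y => w j y * P q y) v (by simpa using hv))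
  refine hmain.trans ?_
  -- the leaves
  have hA : Lf n (fun v => ∑ q, Ga q v * log (Ga q v)) [] ≤
      Lf n (fun y => w (n - 1) y * (1 + log 2 + ∑ q, P q y * log (P q y))) [] := by
    refine Lf_mono _ _ fun y hy => ?_
    have hyn : y.length = n := by simpa using hy
    have e1 : ∀ q, Ga q y = w (n - 1) y * P q y := by
      intro q
      simp only [hGa, hyn, Nat.sub_self, Lf]
    have hw2 : w (n - 1) y ≤ 2 := by
      have := hg y hyn.le
      simpa [hyn, Lf] using this
    have hw0 := hw (n - 1) y
    have e2 : ∀ q, Ga q y * log (Ga q y) =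
        w (n - 1) y * log (w (n - 1) y) * P q y + w (n - 1) y * (P q y * log (P q y)) := by
      intro q
      rw [e1 q]
      rcases hw0.eq_or_lt with h | h
      · rw [← h]; simp
      rcases (hP q y).eq_or_lt with h' | h'
      · rw [← h']; simp
      rw [log_mul h.ne' h'.ne']; ring
    simp only [e2, sum_add_distrib, ← mul_sum, hP1 y hyn, mul_one]
    have h3 : w (n - 1) y * log (w (n - 1) y) ≤ w (n - 1) y * (1 + log 2) := by
      refine mul_le_mul_of_nonneg_left ?_ hw0
      rcases hw0.eq_or_lt with h | h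
      · rw [← h, log_zero]; linarith
      · have := log_le_log h hw2
        linarith
    rw [mul_add]
    linarith
  -- the removals
  have hB : S n (fun v => ∑ q, (Ga q v * log (Ga q v) - Gd q v * log (Gd q v))) [] ≤
      S n (fun v => Lf (n - v.length) ((fun j y => (w (j - 1) y - w j y) *
        (1 + log 2 + ∑ q, P q y * log (P q y))) v.length) v) [] := by
    refine S_mono n [] fun v hv => ?_
    have hvn : v.length < n := by simpa using hv
    have h1 : ∀ q, Ga q v * log (Ga q v) - Gd q v * log (Gd q v) ≤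
        (Ga q v - Gd q v) * (1 + log (Ga q v)) :=
      fun q => psi_sub_le (hGd0 q v) (hda q v hvn.le)
    refine (sum_le_sum fun q _ => h1 q).trans ?_
    have h2 : ∀ q, (Ga q v - Gd q v) * (1 + log (Ga q v)) =
        Lf (n - v.length) (fun y => (w (v.length - 1) y - w v.length y) *
          (P q y * (1 + log (Ga q v)))) v := by
      intro q
      simp only [hGa, hGd]
      rw [← Lf_sub, mul_comm, ← Lf_smul]
      refine Lf_congr _ _ fun y _ => ?_
      ring
    simp only [h2]
    rw [← Lf_sum]
    refine Lf_mono_app _ _ fun u hu => ?_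
    have hyn : (u ++ v).length = n := by simp [hu]; omega
    rw [← mul_sum]
    have hρ : 0 ≤ w (v.length - 1) (u ++ v) - w v.length (u ++ v) :=
      sub_nonneg.mpr (hwm _ _ hyn)
    rcases (hw (v.length - 1) (u ++ v)).eq_or_lt with h0 | h0
    · have h3 := hw v.length (u ++ v)
      have h4 : w (v.length - 1) (u ++ v) - w v.length (u ++ v) = 0 := by linarith
      rw [h4, zero_mul, zero_mul]
    refine mul_le_mul_of_nonneg_left ?_ hρ
    simp only [mul_add, mul_one, sum_add_distrib, hP1 _ hyn]
    have hpos : ∀ q, P q (u ++ v) ≠ 0 → 0 < Ga q v := by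
      intro q hq
      have hPq : 0 < P q (u ++ v) := lt_of_le_of_ne (hP q _) (Ne.symm hq)
      have h5 := le_Lf_app (F := fun y => w (v.length - 1) y * P q y)
        (fun y => mul_nonneg (hw _ _) (hP _ _)) u v
      rw [hu] at h5
      have h6 : 0 < w (v.length - 1) (u ++ v) * P q (u ++ v) := mul_pos h0 hPq
      by_contra hcon
      have h7 : Ga q v = 0 := le_antisymm (not_lt.mp hcon) (hGa0 q v)
      simp only [hGa] at h7
      rw [h7, mul_zero] at h5
      exact absurd h6 (not_lt.mpr h5)
    have h8 := gibbs_mass (fun q => P q (u ++ v)) (fun q => Ga q v) (fun q => hP q _) (hP1 _ hyn)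
      hpos (fun q => hGa0 q v) (hsum v hvn.le)
    linarith
  rw [S_swap0 n (fun j y => (w (j - 1) y - w j y) * (1 + log 2 + ∑ q, P q y * log (P q y)))] at hB
  -- collect
  have hC : Lf n (fun y => w (n - 1) y * (1 + log 2 + ∑ q, P q y * log (P q y))) [] +
      Lf n (fun x => ∑ j ∈ range n, (w (j - 1) x - w j x) *
        (1 + log 2 + ∑ q, P q x * log (P q x))) [] =
      (1 + log 2) * Lf n (w 0) [] + Lf n (fun y => w 0 y * ∑ q, P q y * log (P q y)) [] := by
    rw [← Lf_add, ← Lf_smul, ← Lf_add]
    refine Lf_congr _ _ fun y _ => ?_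
    rw [← sum_mul, sum_pred_sub n (fun j => w j y)]
    ring
  -- the root
  have hroot : ∀ q, Ga q [] = Lf n (fun y => w 0 y * P q y) [] := by
    intro q; simp [hGa]
  set g0 := Lf n (w 0) [] with hg0
  have hg0n : 0 ≤ g0 := Lf_nonneg _ _ fun y _ => hw _ _
  have hsum0 : ∑ q, Ga q [] = g0 := by
    simp only [hroot]
    rw [← Lf_sum, hg0]
    refine Lf_congr _ _ fun y hy => ?_
    rw [← mul_sum, hP1 y (by simpa using hy), mul_one]
  have hD : - ∑ q, Ga q [] * log (Ga q []) ≤
      - (g0 * log g0) - Lf n (fun y => w 0 y * ∑ q, P q y * log (r q)) [] := by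
    have e1 : Lf n (fun y => w 0 y * ∑ q, P q y * log (r q)) [] = ∑ q, Ga q [] * log (r q) := by
      simp only [hroot]
      have : ∀ q, Lf n (fun y => w 0 y * P q y) [] * log (r q) =
          Lf n (fun y => w 0 y * (P q y * log (r q))) [] := by
        intro q
        rw [mul_comm, ← Lf_smul]
        exact Lf_congr _ _ fun y _ => by ring
      simp only [this]
      rw [← Lf_sum]
      exact Lf_congr _ _ fun y _ => by rw [mul_sum]
    rw [e1]
    rcases hg0n.eq_or_lt with h | h
    · have h1 : ∀ q, Ga q [] = 0 := by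
        have h2 : ∑ q, Ga q [] = 0 := by rw [hsum0, ← h]
        intro q
        exact (sum_eq_zero_iff_of_nonneg (fun q _ => hGa0 q [])).mp h2 q (mem_univ q)
      rw [← h]
      simp [h1]
    · have h1 : ∀ q, Ga q [] / g0 ≠ 0 → 0 < r q := by
        intro q hq
        have hq' : Ga q [] ≠ 0 := fun h0 => hq (by rw [h0, zero_div])
        by_contra hcon
        apply hq'
        rw [hroot]
        refine le_antisymm ?_ ?_
        · have := Lf_le_of n (F := fun y => w 0 y * P q y) (c := 0) [] fun y hy => ?_
          · exact this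
          · by_contra h2
            exact hcon (hr q y (by simpa using hy) fun h3 => h2 (by rw [h3]))
        · exact Lf_nonneg _ _ fun y _ => mul_nonneg (hw _ _) (hP _ _)
      have h2 := gibbs_mass (g := 1) (fun q => Ga q [] / g0) r
        (fun q => div_nonneg (hGa0 q []) h.le)
        (by rw [← sum_div, hsum0, div_self h.ne']) h1 hr0 hr1
      rw [log_one, add_zero] at h2
      have h3 : g0 * ∑ q, Ga q [] / g0 * log (r q) = ∑ q, Ga q [] * log (r q) := by
        rw [mul_sum]
        refine sum_congr rfl fun q _ => ?_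
        field_simp
      have h4 : g0 * ∑ q, Ga q [] / g0 * log (Ga q [] / g0) =
          ∑ q, Ga q [] * log (Ga q []) - g0 * log g0 := by
        rw [mul_sum]
        have : ∀ q, g0 * (Ga q [] / g0 * log (Ga q [] / g0)) =
            Ga q [] * log (Ga q []) - Ga q [] * log g0 := by
          intro q
          rcases eq_or_ne (Ga q []) 0 with h5 | h5
          · simp [h5]
          · rw [log_div h5 h.ne']
            field_simp
        simp only [this, sum_sub_distrib, ← sum_mul, hsum0]
      have h5 := mul_le_mul_of_nonneg_left h2 h.le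
      rw [h3, h4] at h5
      linarith
  have hE : Lf n (fun y => w 0 y * ∑ q, P q y * (log (P q y) - log (r q))) [] =
      Lf n (fun y => w 0 y * ∑ q, P q y * log (P q y)) [] -
        Lf n (fun y => w 0 y * ∑ q, P q y * log (r q)) [] := by
    rw [← Lf_sub]
    refine Lf_congr _ _ fun y _ => ?_
    rw [← mul_sub, ← sum_sub_distrib]
    congr 1
    exact sum_congr rfl fun q _ => by ring
  rw [hE]
  linarith


/-! ## product kernels -/

theorem sum_pi_prod_mul {J : Type} [Fintype J] [DecidableEq J] {A : J → Type}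
    [∀ k, Fintype (A k)] (p : ∀ k, A k → ℝ) (hp1 : ∀ k, ∑ a, p k a = 1) (k : J) (f : A k → ℝ) :
    ∑ q : (∀ k, A k), (∏ j, p j (q j)) * f (q k) = ∑ a, p k a * f a := by
  classical
  have h1 : ∀ q : (∀ k, A k), (∏ j, p j (q j)) * f (q k) =
      ∏ j, (if h : j = k then p j (q j) * f (h ▸ q j) else p j (q j)) := by
    intro q
    rw [← mul_prod_erase univ _ (mem_univ k), ← mul_prod_erase univ (fun j => if h : j = k then
      p j (q j) * f (h ▸ q j) else p j (q j)) (mem_univ k)]
    have h2 : ∏ j ∈ univ.erase k, (if h : j = k then p j (q j) * f (h ▸ q j) else p j (q j)) =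
        ∏ j ∈ univ.erase k, p j (q j) := by
      refine prod_congr rfl fun j hj => ?_
      rw [dif_neg (ne_of_mem_erase hj)]
    rw [h2]
    simp only [dif_pos]
    ring
  simp only [h1]
  have h3 := (Finset.prod_univ_sum (fun j => (univ : Finset (A j)))
    (fun j a => if h : j = k then p j a * f (h ▸ a) else p j a))
  rw [Fintype.piFinset_univ] at h3
  rw [← h3, ← mul_prod_erase univ _ (mem_univ k)]
  have h4 : ∏ j ∈ univ.erase k, ∑ a, (if h : j = k then p j a * f (h ▸ a) else p j a) = 1 := by
    refine prod_eq_one fun j hj => ?_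
    have : ∀ a, (if h : j = k then p j a * f (h ▸ a) else p j a) = p j a := fun a =>
      dif_neg (ne_of_mem_erase hj)
    simp only [this, hp1]
  rw [h4, mul_one]
  simp

/-- the divergence of product laws is the sum of the divergences -/
theorem info_prod {J : Type} [Fintype J] [DecidableEq J] {A : J → Type}
    [∀ k, Fintype (A k)] (p r : ∀ k, A k → ℝ) (hp1 : ∀ k, ∑ a, p k a = 1)
    (hr : ∀ k a, p k a ≠ 0 → r k a ≠ 0) :
    ∑ q : (∀ k, A k), (∏ j, p j (q j)) * (log (∏ j, p j (q j)) - log (∏ j, r j (q j))) =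
      ∑ k, ∑ a, p k a * (log (p k a) - log (r k a)) := by
  have h1 : ∀ q : (∀ k, A k),
      (∏ j, p j (q j)) * (log (∏ j, p j (q j)) - log (∏ j, r j (q j))) =
        ∑ k, (∏ j, p j (q j)) * (log (p k (q k)) - log (r k (q k))) := by
    intro q
    rcases eq_or_ne (∏ j, p j (q j)) 0 with h | h
    · simp [h]
    · have h2 : ∀ j, p j (q j) ≠ 0 := fun j => prod_ne_zero_iff.mp h j (mem_univ j)
      rw [log_prod fun j _ => h2 j, log_prod fun j _ => hr j _ (h2 j), ← sum_sub_distrib,
        mul_sum]
  simp only [h1]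
  rw [sum_comm]
  exact sum_congr rfl fun k _ => sum_pi_prod_mul p hp1 k fun a => log (p k a) - log (r k a)

/-- the value information of a product kernel is at most the sum of the informations of the units -/
theorem Lf_info_prod {J : Type} [Fintype J] [DecidableEq J] {A : J → Type}
    [∀ k, Fintype (A k)] (n : ℕ) (w : Node → ℝ) (p : ∀ k, A k → Node → ℝ) (r : ∀ k, A k → ℝ)
    (hp1 : ∀ k (y : Node), y.length = n → ∑ a, p k a y = 1)
    (hr : ∀ k a (y : Node), y.length = n → w y ≠ 0 → p k a y ≠ 0 → r k a ≠ 0) :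
    Lf n (fun y => w y * ∑ q : (∀ k, A k), (∏ j, p j (q j) y) *
        (log (∏ j, p j (q j) y) - log (∏ j, r j (q j)))) [] =
      ∑ k, Lf n (fun y => w y * ∑ a, p k a y * (log (p k a y) - log (r k a))) [] := by
  rw [← Lf_sum]
  refine Lf_congr _ _ fun y hy => ?_
  have hyn : y.length = n := by simpa using hy
  rcases eq_or_ne (w y) 0 with h | h
  · simp [h]
  · rw [← mul_sum]
    congr 1
    exact info_prod (fun k a => p k a y) r (fun k => hp1 k y hyn) fun k a => hr k a y hyn h

end Vale.Agent.P091.T.H587
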