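import Vale.Agent.P091.T.Defs
import Vale.Agent.P091.T.H587.YEn
import Vale.Agent.P091.T.H350.Bridge

/-! # The value information of a list of units in the letters of `T/Defs` -/

set_option autoImplicit false

open Finset Real
open Vale.Agent.P091.Spec
open Vale.Agent.P065.Ent

noncomputable section

namespace Vale.Agent.P091.T.H587

open Vale.Agent.P091.T

section grp
variable {G : Type} [AddCommGroup G] [Fintype G]

/-- the information of an additive noise -/
theorem info_add {lam ρ : G → ℝ} (hl : IsProb lam) (hρ : IsProb ρ) :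
    I (prw lam ρ) (fun w : G × G => w.1) (fun w => w.1 + w.2) (fun _ => ()) =
      ∑ y, lam y * ∑ a, ρ (a - y) * (log (ρ (a - y)) - log (∑ y', lam y' * ρ (a - y'))) := by
  classical
  have hP1 : ∀ w : G × G, Pr (prw lam ρ) (fun w : G × G => (w.1, ())) (w.1, ()) = lam w.1 := by
    intro w
    unfold Pr prw
    rw [Fintype.sum_prod_type]
    simp only [Prod.mk.injEq, and_true]
    rw [sum_eq_single w.1]
    · simp only [if_true]
      rw [← mul_sum, hρ.sum, mul_one]
    · intro b _ hb
      simp [hb]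
    · simp
  have hP2 : Pr (prw lam ρ) (fun _ : G × G => ()) () = 1 := by
    unfold Pr prw
    rw [Fintype.sum_prod_type]
    simp only [if_true]
    simp only [← mul_sum, hρ.sum, mul_one, hl.sum]
  have hP3 : ∀ w : G × G, Pr (prw lam ρ) (fun w : G × G => (w.1, (w.1 + w.2, ())))
      (w.1, (w.1 + w.2, ())) = lam w.1 * ρ w.2 := by
    intro w
    unfold Pr prw
    rw [Fintype.sum_prod_type]
    simp only [Prod.mk.injEq, and_true]
    rw [sum_eq_single w.1]
    · rw [sum_eq_single w.2]
      · simp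
      · intro b _ hb
        simp [hb]
      · simp
    · intro b _ hb
      simp [hb]
    · simp
  have hP4 : ∀ w : G × G, Pr (prw lam ρ) (fun w : G × G => (w.1 + w.2, ())) (w.1 + w.2, ()) =
      ∑ y', lam y' * ρ (w.1 + w.2 - y') := by
    intro w
    unfold Pr prw
    rw [Fintype.sum_prod_type]
    simp only [Prod.mk.injEq, and_true]
    refine sum_congr rfl fun y _ => ?_
    rw [sum_eq_single (w.1 + w.2 - y)]
    · simp
    · intro b _ hb
      rw [if_neg]
      intro h
      exact hb (by rw [← h]; abel)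
    · simp
  have hH1 : H (prw lam ρ) (fun w : G × G => (w.1, ())) =
      ∑ w : G × G, lam w.1 * ρ w.2 * (- log (lam w.1)) := by
    unfold H
    exact sum_congr rfl fun w _ => by rw [hP1]; rfl
  have hH2 : H (prw lam ρ) (fun _ : G × G => ()) = 0 := by
    unfold H
    refine sum_eq_zero fun w _ => ?_
    rw [hP2]; simp
  have hH3 : H (prw lam ρ) (fun w : G × G => (w.1, (w.1 + w.2, ()))) =
      ∑ w : G × G, lam w.1 * ρ w.2 * (- log (lam w.1 * ρ w.2)) := by
    unfold H
    exact sum_congr rfl fun w _ => by rw [hP3]; rfl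
  have hH4 : H (prw lam ρ) (fun w : G × G => (w.1 + w.2, ())) =
      ∑ w : G × G, lam w.1 * ρ w.2 * (- log (∑ y', lam y' * ρ (w.1 + w.2 - y'))) := by
    unfold H
    exact sum_congr rfl fun w _ => by rw [hP4]; rfl
  have h5 : I (prw lam ρ) (fun w : G × G => w.1) (fun w => w.1 + w.2) (fun _ => ()) =
      ∑ w : G × G, lam w.1 * ρ w.2 *
        (log (ρ w.2) - log (∑ y', lam y' * ρ (w.1 + w.2 - y'))) := by
    unfold I Hc
    rw [hH1, hH2, hH3, hH4, sub_zero, ← sum_sub_distrib, ← sum_sub_distrib]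
    refine sum_congr rfl fun w _ => ?_
    rcases eq_or_ne (lam w.1) 0 with h | h
    · rw [h]; ring
    rcases eq_or_ne (ρ w.2) 0 with h' | h'
    · rw [h']; ring
    rw [log_mul h h']
    ring
  rw [h5, Fintype.sum_prod_type]
  refine sum_congr rfl fun y _ => ?_
  rw [mul_sum]
  rw [← Equiv.sum_comp (Equiv.subRight y)]
  refine sum_congr rfl fun a _ => ?_
  simp only [Equiv.subRight_apply]
  rw [show y + (a - y) = a by abel]
  ring

end grp

open Vale.Agent.P091.H413

/-! ## one unit, laws on the leaves of the list tree -/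

section unit
variable {n b : ℕ}

/-- the marginal of `idx x + t`, `x` a leaf with weight `w` -/
def marg (m : ℕ) (w : Node → ℝ) (idx : Node → ZMod (2 ^ (n + b))) (ρ : ZMod (2 ^ (n + b)) → ℝ)
    (a : ZMod (2 ^ (n + b))) : ℝ := Lf m (fun x => w x * ρ (a - idx x)) [] / Lf m w []

theorem marg_nonneg (m : ℕ) {w : Node → ℝ} (hw : ∀ x, 0 ≤ w x)
    (idx : Node → ZMod (2 ^ (n + b))) {ρ : ZMod (2 ^ (n + b)) → ℝ} (hρ : ∀ t, 0 ≤ ρ t)
    (a : ZMod (2 ^ (n + b))) : 0 ≤ marg m w idx ρ a :=
  div_nonneg (Lf_nonneg _ _ fun x _ => mul_nonneg (hw x) (hρ _)) (Lf_nonneg _ _ fun x _ => hw x)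

theorem Lf_pos_of {m : ℕ} {F : Node → ℝ} (hF : ∀ x, 0 ≤ F x) {x : Node} (hx : x.length = m)
    (h : F x ≠ 0) : 0 < Lf m F [] := by
  have h1 := le_Lf_app hF x []
  rw [List.append_nil, hx] at h1
  have h2 : 0 < F x := lt_of_le_of_ne (hF x) (Ne.symm h)
  by_contra hcon
  have h3 : Lf m F [] ≤ 0 := not_lt.mp hcon
  have h4 : (0 : ℝ) < 2 ^ m := by positivity
  nlinarith

theorem marg_pos {m : ℕ} {w : Node → ℝ} (hw : ∀ x, 0 ≤ w x)
    (idx : Node → ZMod (2 ^ (n + b))) {ρ : ZMod (2 ^ (n + b)) → ℝ} (hρ : ∀ t, 0 ≤ ρ t)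
    {a : ZMod (2 ^ (n + b))} {x : Node} (hx : x.length = m) (h1 : w x ≠ 0)
    (h2 : ρ (a - idx x) ≠ 0) : 0 < marg m w idx ρ a :=
  div_pos (Lf_pos_of (fun x => mul_nonneg (hw x) (hρ _)) hx (mul_ne_zero h1 h2))
    (Lf_pos_of hw hx h1)

theorem sum_marg {m : ℕ} {w : Node → ℝ} (idx : Node → ZMod (2 ^ (n + b)))
    {ρ : ZMod (2 ^ (n + b)) → ℝ} (hρ : IsProb ρ) (h0 : Lf m w [] ≠ 0) :
    ∑ a, marg m w idx ρ a = 1 := by
  unfold marg
  rw [← sum_div, ← Lf_sum]
  have : Lf m (fun x => ∑ a, w x * ρ (a - idx x)) [] = Lf m w [] := by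
    refine Lf_congr _ _ fun x _ => ?_
    rw [← mul_sum]
    have h1 : ∑ a, ρ (a - idx x) = ∑ a, ρ a :=
      Equiv.sum_comp (Equiv.subRight (idx x)) ρ
    rw [h1, hρ.sum, mul_one]
  rw [this, div_self h0]

/-- the information of one unit under a weight on the leaves -/
theorem unit_info {k : Un n b} {ε D : ℝ} {Y : Finset ℕ} (hk : k.Ok ε D Y) (m : ℕ)
    {w : Node → ℝ} (hw : ∀ x, 0 ≤ w x) (idx : Node → ZMod (2 ^ (n + b)))
    (hY : ∀ x : Node, x.length = m → w x ≠ 0 → ∃ i ∈ Y, (i : ZMod (2 ^ (n + b))) = idx x) :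
    Lf m (fun x => w x * ∑ a, k.ρ (a - idx x) *
        (log (k.ρ (a - idx x)) - log (marg m w idx k.ρ a))) [] ≤ ε * D * Lf m w [] := by
  classical
  rcases (Lf_nonneg m [] fun x _ => hw x).eq_or_lt with h0 | h0
  · have h1 : ∀ x : Node, x.length = m → w x = 0 := by
      intro x hx
      by_contra hcon
      exact absurd h0 (Lf_pos_of hw hx hcon).ne
    rw [← h0, mul_zero]
    refine Lf_le_of _ _ fun x hx => ?_
    rw [h1 x (by simpa using hx), zero_mul]
  set g0 := Lf m w [] with hg0
  set lam : ZMod (2 ^ (n + b)) → ℝ := fun y => Lf m (fun x => if idx x = y then w x else 0) [] / g0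
    with hlam
  have hpush : ∀ f : ZMod (2 ^ (n + b)) → ℝ,
      ∑ y, lam y * f y = Lf m (fun x => w x * f (idx x)) [] / g0 := by
    intro f
    simp only [hlam]
    have h1 : ∀ y, Lf m (fun x => if idx x = y then w x else 0) [] / g0 * f y =
        Lf m (fun x => f y * (if idx x = y then w x else 0)) [] / g0 := by
      intro y
      rw [Lf_smul]; ring
    rw [sum_congr rfl fun y _ => h1 y, ← sum_div, ← Lf_sum]
    congr 1
    refine Lf_congr _ _ fun x _ => ?_
    rw [sum_eq_single (idx x)]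
    · simp [mul_comm]
    · intro y _ hy
      rw [if_neg (Ne.symm hy), mul_zero]
    · simp
  have hlp : IsProb lam := by
    refine ⟨fun y => div_nonneg (Lf_nonneg _ _ fun x _ => ?_) h0.le, ?_⟩
    · split_ifs
      · exact hw x
      · exact le_rfl
    · have := hpush fun _ => 1
      simp only [mul_one] at this
      rw [this, div_self h0.ne']
  have hls : ∀ y, lam y ≠ 0 → ∃ i ∈ Y, (i : ZMod (2 ^ (n + b))) = y := by
    intro y hy
    by_contra hcon
    apply hy
    have : Lf m (fun x => if idx x = y then w x else 0) [] = Lf m (fun _ => 0) [] := by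
      refine Lf_congr _ _ fun x hx => ?_
      split_ifs with h
      · by_contra h2
        obtain ⟨i, hi, hi'⟩ := hY x (by simpa using hx) h2
        exact hcon ⟨i, hi, hi'.trans h⟩
      · rfl
    simp only [hlam]
    rw [this, Lf_const, zero_div]
  have hmain := hk.info lam hlp hls
  rw [info_add hlp hk.ρ1, hpush fun y => ∑ a, k.ρ (a - y) *
    (log (k.ρ (a - y)) - log (∑ y', lam y' * k.ρ (a - y'))), div_le_iff₀ h0] at hmain
  refine le_trans (le_of_eq ?_) hmain
  refine Lf_congr _ _ fun x _ => ?_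
  congr 1
  refine sum_congr rfl fun a _ => ?_
  have : ∑ y', lam y' * k.ρ (a - y') = marg m w idx k.ρ a := hpush fun y => k.ρ (a - y)
  rw [this]

end unit

/-! ## lists of units -/

section list
variable {n b : ℕ}

/-- the kernel of the values of the list `J` -/
def kerL (J : List (Un n b)) (q : Fin J.length → ZMod (2 ^ (n + b))) (y : ZMod (2 ^ (n + b))) :
    ℝ := ∏ k, (J.get k).ρ (q k - y)

theorem kerL_nonneg {J : List (Un n b)} (hJ : ∀ k ∈ J, ∀ t, 0 ≤ k.ρ t)
    (q : Fin J.length → ZMod (2 ^ (n + b))) (y : ZMod (2 ^ (n + b))) : 0 ≤ kerL J q y :=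
  prod_nonneg fun k _ => hJ _ (List.get_mem J k) _

theorem sum_kerL {J : List (Un n b)} (hJ : ∀ k ∈ J, IsProb k.ρ) (y : ZMod (2 ^ (n + b))) :
    ∑ q, kerL J q y = 1 := by
  classical
  unfold kerL
  have h3 := (Finset.prod_univ_sum (fun _ : Fin J.length => (univ : Finset (ZMod (2 ^ (n + b)))))
    (fun k a => (J.get k).ρ (a - y)))
  rw [Fintype.piFinset_univ] at h3
  rw [← h3]
  refine prod_eq_one fun k _ => ?_
  have h1 : ∑ a, (J.get k).ρ (a - y) = ∑ a, (J.get k).ρ a :=
    Equiv.sum_comp (Equiv.subRight y) _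
  rw [h1, (hJ _ (List.get_mem J k)).sum]

/-- the reference of the values: the product of the marginals -/
def refL (J : List (Un n b)) (m : ℕ) (w : Node → ℝ) (idx : Node → ZMod (2 ^ (n + b)))
    (q : Fin J.length → ZMod (2 ^ (n + b))) : ℝ := ∏ k, marg m w idx (J.get k).ρ (q k)

/-- **The value information of a list of valid units** under any weight on the leaves. -/
theorem list_info {J : List (Un n b)} {ε D : ℝ} {Y : Finset ℕ} (hJ : ∀ k ∈ J, k.Ok ε D Y)
    (m : ℕ) {w : Node → ℝ} (hw : ∀ x, 0 ≤ w x) (idx : Node → ZMod (2 ^ (n + b)))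
    (hY : ∀ x : Node, x.length = m → w x ≠ 0 → ∃ i ∈ Y, (i : ZMod (2 ^ (n + b))) = idx x) :
    Lf m (fun x => w x * ∑ q, kerL J q (idx x) *
        (log (kerL J q (idx x)) - log (refL J m w idx q))) [] ≤
      J.length * (ε * D) * Lf m w [] := by
  classical
  have h1 := Lf_info_prod (J := Fin J.length) (A := fun _ => ZMod (2 ^ (n + b))) m w
    (fun k a x => (J.get k).ρ (a - idx x)) (fun k a => marg m w idx (J.get k).ρ a)
    (fun k x _ => by
      have h1 : ∑ a, (J.get k).ρ (a - idx x) = ∑ a, (J.get k).ρ a :=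
        Equiv.sum_comp (Equiv.subRight (idx x)) _
      rw [h1, (hJ _ (List.get_mem J k)).ρ1.sum])
    (fun k a x hx h2 h3 =>
      (marg_pos hw idx (hJ _ (List.get_mem J k)).ρ1.nonneg hx h2 h3).ne')
  unfold kerL refL
  rw [h1]
  refine (sum_le_sum fun k _ =>
    unit_info (hJ _ (List.get_mem J k)) m hw idx hY).trans (le_of_eq ?_)
  rw [sum_const, card_univ, Fintype.card_fin, nsmul_eq_mul]
  ring

/-- **The `y`-energy of one epoch for the list `J`** in the letters of `T/Defs`; `idx x` = the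
element of `ZMod (2 ^ (n + b))` of the leaf `x`. -/
theorem list_energy {J : List (Un n b)} {ε D : ℝ} {Y : Finset ℕ} (hJ : ∀ k ∈ J, k.Ok ε D Y)
    (m : ℕ) (w : ℕ → Node → ℝ) (idx : Node → ZMod (2 ^ (n + b)))
    (hw : ∀ j y, 0 ≤ w j y) (hwa : ∀ j y, y.length = m → w (j + 1) y ≤ w j y)
    (hg : ∀ v : Node, v.length ≤ m → Lf (m - v.length) (w (v.length - 1)) v ≤ 2)
    (hY : ∀ x : Node, x.length = m → w 0 x ≠ 0 → ∃ i ∈ Y, (i : ZMod (2 ^ (n + b))) = idx x) :
    S m (fun v => ∑ q, ((Lf (m - (true :: v).length)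
            (fun y => w ((true :: v).length - 1) y * kerL J q (idx y)) (true :: v) -
          Lf (m - (false :: v).length)
            (fun y => w ((false :: v).length - 1) y * kerL J q (idx y)) (false :: v)) / 2) ^ 2 /
        Lf (m - v.length) (fun y => w v.length y * kerL J q (idx y)) v) [] ≤
      2 * ((1 + log 2) * Lf m (w 0) [] - Lf m (w 0) [] * log (Lf m (w 0) []) +
        J.length * (ε * D) * Lf m (w 0) []) := by
  classical
  rcases (Lf_nonneg m [] fun x _ => hw 0 x).eq_or_lt with h0 | h0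
  · -- no mass
    have h1 : ∀ x : Node, x.length = m → w 0 x = 0 := by
      intro x hx
      by_contra hcon
      exact absurd h0 (Lf_pos_of (hw 0) hx hcon).ne
    have h2 : ∀ j (x : Node), x.length = m → w j x = 0 := by
      intro j x hx
      induction j with
      | zero => exact h1 x hx
      | succ j ih => exact le_antisymm ((hwa j x hx).trans ih.le) (hw _ _)
    rw [← h0]
    simp only [mul_zero, zero_mul, sub_zero, add_zero]
    have h3 : ∀ v : Node, v.length ≤ m → ∀ q j,
        Lf (m - v.length) (fun y => w j y * kerL J q (idx y)) v = 0 := by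
      intro v hv q j
      have : Lf (m - v.length) (fun y => w j y * kerL J q (idx y)) v =
          Lf (m - v.length) (fun _ => 0) v :=
        Lf_congr _ _ fun x hx => by rw [h2 j x (by omega), zero_mul]
      rw [this, Lf_const]
    have h4 : ∀ v : Node, v.length < m + ([] : Node).length →
        (∑ q, ((Lf (m - (true :: v).length)
            (fun y => w ((true :: v).length - 1) y * kerL J q (idx y)) (true :: v) -
          Lf (m - (false :: v).length)
            (fun y => w ((false :: v).length - 1) y * kerL J q (idx y)) (false :: v)) / 2) ^ 2 /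
        Lf (m - v.length) (fun y => w v.length y * kerL J q (idx y)) v) ≤ 0 := by
      intro v hv
      simp only [List.length_nil, add_zero] at hv
      refine le_of_eq (sum_eq_zero fun q _ => ?_)
      rw [h3 v hv.le, div_zero]
    have h5 := S_mono m [] (g := fun _ => 0) h4
    refine h5.trans (le_of_eq ?_)
    have := S_smul m 0 (fun _ => (0 : ℝ)) []
    simpa using this
  refine (y_energy_info m w (fun q y => kerL J q (idx y)) (refL J m (w 0) idx) hw hwa
    (fun q y => kerL_nonneg (fun k hk => (hJ k hk).ρ1.nonneg) q _)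
    (fun y _ => sum_kerL (fun k hk => (hJ k hk).ρ1) _) hg ?_ ?_ ?_).trans ?_
  · exact fun q => prod_nonneg fun k _ =>
      marg_nonneg m (hw 0) idx (hJ _ (List.get_mem J k)).ρ1.nonneg _
  · intro q y hy h
    have h1 : w 0 y ≠ 0 := left_ne_zero_of_mul h
    have h2 : kerL J q (idx y) ≠ 0 := right_ne_zero_of_mul h
    have h3 := prod_ne_zero_iff.mp h2
    exact prod_pos fun k _ => marg_pos (hw 0) idx (hJ _ (List.get_mem J k)).ρ1.nonneg hy h1
      (h3 k (mem_univ k))
  · refine le_of_eq ?_
    unfold refL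
    have h3 := (Finset.prod_univ_sum
      (fun _ : Fin J.length => (univ : Finset (ZMod (2 ^ (n + b)))))
      (fun k a => marg m (w 0) idx (J.get k).ρ a))
    rw [Fintype.piFinset_univ] at h3
    rw [← h3]
    exact prod_eq_one fun k _ => sum_marg idx (hJ _ (List.get_mem J k)).ρ1 h0.ne'
  · have h1 := list_info hJ m (hw 0) idx hY
    linarith

end list

end Vale.Agent.P091.T.H587
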