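import Vale.Agent.P091.T.Rel
import Vale.Agent.P091.T.H587.Info
import Vale.Agent.P091.T.H233.Act

/-! # The `y`-side of an epoch on the relative list tree (row E1-C)

`fY p n j0 a0 Y W j x` = alive density of the leaf `x` after the level `j` (relative to
`(j0, a0)`), normalised by twice the average of `p 1_Y` over the root. -/

set_option autoImplicit false

open Finset Real
open Vale.Agent.P091.Spec
open Vale.Agent.P065.Ent

noncomputable section

namespace Vale.Agent.P091.T.H587

open Vale.Agent.P091.H413 Vale.Agent.P091.T Vale.Agent.P091.T.H350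

/-! ## telescoping of cuts -/

theorem S_last (n : ℕ) (F : Node → ℝ) (v : Node) : S (n + 1) F v = S n F v + Lf n F v := by
  induction n generalizing v with
  | zero => simp [S, Lf]
  | succ n ih =>
    have e1 : S (n + 1 + 1) F v = F v + (S (n + 1) F (true :: v) + S (n + 1) F (false :: v)) / 2 :=
      rfl
    have e2 : S (n + 1) F v = F v + (S n F (true :: v) + S n F (false :: v)) / 2 := rfl
    have e3 : Lf (n + 1) F v = (Lf n F (true :: v) + Lf n F (false :: v)) / 2 := rfl
    rw [e1, e2, e3, ih, ih]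
    ring

theorem S_super (n : ℕ) {Φ Φ' : Node → ℝ} (v : Node)
    (h : ∀ w : Node, w.length < n + v.length → (Φ' (true :: w) + Φ' (false :: w)) / 2 ≤ Φ w) :
    S n (fun w => Φ' w - Φ w) v ≤ Φ' v - Lf n Φ' v := by
  induction n generalizing v with
  | zero => simp [S, Lf]
  | succ n ih =>
    simp only [S, Lf]
    have h1 := ih (true :: v) (fun w hw => h w (by simp only [List.length_cons] at hw; omega))
    have h2 := ih (false :: v) (fun w hw => h w (by simp only [List.length_cons] at hw; omega))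
    have h3 := h v (by omega)
    linarith

/-- total amount cut, all levels `≤ n` -/
theorem S_cuts (n : ℕ) {Φ Φ' : Node → ℝ} (v : Node)
    (h : ∀ w : Node, w.length < n + v.length → (Φ' (true :: w) + Φ' (false :: w)) / 2 ≤ Φ w)
    (h0 : ∀ w : Node, w.length = n + v.length → 0 ≤ Φ w) :
    S (n + 1) (fun w => Φ' w - Φ w) v ≤ Φ' v := by
  rw [S_last]
  have h1 := S_super n v h
  have h2 := Lf_sub n Φ' Φ v
  have h3 := Lf_nonneg n v h0
  linarith

/-! ## the alive density -/

/-- alive density of the leaf `x` after the level `j` -/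
def fY (p : ℕ → ℝ) (n j0 a0 : ℕ) (Y : Finset ℕ) (W : ℕ → ℕ → Finset ℕ) (j : ℕ) (x : Node) : ℝ :=
  if j ≤ n - j0 then
    cut p (W (j0 + j) (ia a0 (H233.anc j x))) (ia a0 x) / (2 * av n j0 a0 (cut p Y)) else 0

/-- departure average at the node `v` of the relative tree -/
def dpY (p : ℕ → ℝ) (n j0 a0 : ℕ) (Y : Finset ℕ) (W : ℕ → ℕ → Finset ℕ) (v : Node) : ℝ :=
  av n (j0 + v.length) (ia a0 v) (cut p (W (j0 + v.length) (ia a0 v))) /
    (2 * av n j0 a0 (cut p Y))

/-- arrival average at the node `v` of the relative tree -/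
def arY (p : ℕ → ℝ) (n j0 a0 : ℕ) (Y : Finset ℕ) (W : ℕ → ℕ → Finset ℕ) (v : Node) : ℝ :=
  av n (j0 + v.length) (ia a0 v) (cut p (arr n j0 Y W (j0 + v.length) (ia a0 v))) /
    (2 * av n j0 a0 (cut p Y))

theorem cut_nonneg {p : ℕ → ℝ} (hp : ∀ i, 0 ≤ p i) (Y : Finset ℕ) (i : ℕ) : 0 ≤ cut p Y i := by
  unfold cut; split_ifs
  · exact hp i
  · exact le_rfl

theorem cut_mono {p : ℕ → ℝ} (hp : ∀ i, 0 ≤ p i) {Y Z : Finset ℕ} (h : Y ⊆ Z) (i : ℕ) :
    cut p Y i ≤ cut p Z i := by
  unfold cut
  split_ifs with h1 h2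
  · exact le_rfl
  · exact absurd (h h1) h2
  · exact hp i
  · exact le_rfl

theorem anc_app (u v : Node) : H233.anc v.length (u ++ v) = v := by
  unfold H233.anc
  rw [List.length_append, Nat.add_sub_cancel]
  exact List.drop_left

section fam
variable {C1 D : ℝ} {n b : ℕ} {ι : Type} [Fintype ι] {d : ZData C1 D n b ι} {s0 : ℝ} {j0 a0 : ℕ}
  {Y : Finset ℕ} {W : ℕ → ℕ → Finset ℕ}

theorem B_pos (hF : Fam d s0 j0 a0 Y W) : 0 < av n j0 a0 (cut d.p Y) :=
  (exp_pos _).trans_le hF.dens

theorem ia_level (a0 : ℕ) (v : Node) (j0 : ℕ) : ia a0 v / 2 ^ (j0 + v.length - j0) = a0 := by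
  rw [Nat.add_sub_cancel_left]
  exact ia_root a0 v

theorem W_sub_arr (hF : Fam d s0 j0 a0 Y W) {v : Node} (hv : j0 + v.length ≤ n) :
    W (j0 + v.length) (ia a0 v) ⊆ arr n j0 Y W (j0 + v.length) (ia a0 v) :=
  hF.W_sub _ _ (Nat.le_add_right _ _) hv (ia_level a0 v j0)

theorem arr_nil : arr n j0 Y W (j0 + ([] : Node).length) (ia a0 []) = Y := by
  unfold arr
  simp

theorem arr_cons (c : Bool) (v : Node) :
    arr n j0 Y W (j0 + (c :: v).length) (ia a0 (c :: v)) =
      W (j0 + v.length) (ia a0 v) ∩ nd n (j0 + (c :: v).length) (ia a0 (c :: v)) := by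
  unfold arr
  rw [if_neg (by simp only [List.length_cons]; omega), ia_div_two]
  congr 1

theorem fY_nonneg (hF : Fam d s0 j0 a0 Y W) (j : ℕ) (x : Node) :
    0 ≤ fY d.p n j0 a0 Y W j x := by
  unfold fY
  have := B_pos hF
  split_ifs
  · exact div_nonneg (cut_nonneg d.p_nonneg _ _) (by linarith)
  · exact le_rfl

theorem fY_anti (hF : Fam d s0 j0 a0 Y W) (j : ℕ) (x : Node) (hx : x.length = n - j0) :
    fY d.p n j0 a0 Y W (j + 1) x ≤ fY d.p n j0 a0 Y W j x := by
  have hB := B_pos hF
  unfold fY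
  by_cases h1 : j + 1 ≤ n - j0
  · rw [if_pos h1, if_pos (by omega)]
    have h2 : j < x.length := by omega
    -- the ancestor of level `j + 1` is a child of the ancestor of level `j`
    have hl1 : (H233.anc (j + 1) x).length = j + 1 := H233.length_anc (by omega)
    obtain ⟨c, u, hcu⟩ : ∃ c u, H233.anc (j + 1) x = c :: u := by
      cases h : H233.anc (j + 1) x with
      | nil => rw [h] at hl1; simp at hl1
      | cons c u => exact ⟨c, u, rfl⟩
    have hu : u.length = j := by rw [hcu] at hl1; simpa using hl1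
    have hanc : H233.anc j x = u := by
      have h3 : H233.anc j (H233.anc (j + 1) x) = H233.anc j x :=
        H233.anc_anc (by omega) (by omega)
      rw [hcu] at h3
      rw [← h3, H233.anc_cons c (by omega)]
      unfold H233.anc
      rw [hu]; simp
    rw [hcu, hanc]
    have h4 := W_sub_arr hF (v := c :: u) (by simp only [List.length_cons]; have := hF.j0_le; omega)
    rw [arr_cons] at h4
    have h5 : W (j0 + (c :: u).length) (ia a0 (c :: u)) ⊆ W (j0 + u.length) (ia a0 u) :=
      h4.trans inter_subset_left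
    have e1 : j0 + (j + 1) = j0 + (c :: u).length := by simp [hu]
    have e2 : j0 + j = j0 + u.length := by simp [hu]
    rw [e1, e2]
    exact div_le_div_of_nonneg_right (cut_mono d.p_nonneg h5 _) (by linarith)
  · rw [if_neg h1]
    have := fY_nonneg hF j x
    unfold fY at this
    exact this

/-- departure averages of the alive density -/
theorem Lf_fY (hF : Fam d s0 j0 a0 Y W) {v : Node} (hv : v.length ≤ n - j0) :
    Lf (n - j0 - v.length) (fY d.p n j0 a0 Y W v.length) v = dpY d.p n j0 a0 Y W v := by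
  have hj := hF.j0_le
  have h1 : Lf (n - j0 - v.length) (fY d.p n j0 a0 Y W v.length) v =
      Lf (n - j0 - v.length) (fun x => (2 * av n j0 a0 (cut d.p Y))⁻¹ *
        cut d.p (W (j0 + v.length) (ia a0 v)) (ia a0 x)) v := by
    refine le_antisymm (Lf_mono_app _ _ fun u hu => ?_) (Lf_mono_app _ _ fun u hu => ?_)
    · unfold fY
      rw [if_pos hv, anc_app u v]
      exact le_of_eq (by rw [div_eq_inv_mul])
    · unfold fY
      rw [if_pos hv, anc_app u v]
      exact le_of_eq (by rw [div_eq_inv_mul])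
  rw [h1, Lf_smul, Lf_ia (n := n) (j0 := j0) (a0 := a0)
    (cut d.p (W (j0 + v.length) (ia a0 v))) (n - j0 - v.length) (by omega)]
  unfold dpY
  rw [div_eq_inv_mul]

theorem cut_inter_nd {p : ℕ → ℝ} (Z : Finset ℕ) (j a : ℕ) :
    av n j a (cut p (Z ∩ nd n j a)) = av n j a (cut p Z) := by
  unfold av
  congr 1
  refine sum_congr rfl fun i hi => ?_
  unfold cut
  simp only [mem_inter, hi, and_true]

/-- arrival averages of the alive density, below the root -/
theorem Lf_fY' (hF : Fam d s0 j0 a0 Y W) (c : Bool) {u : Node} (hv : (c :: u).length ≤ n - j0) :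
    Lf (n - j0 - (c :: u).length) (fY d.p n j0 a0 Y W ((c :: u).length - 1)) (c :: u) =
      arY d.p n j0 a0 Y W (c :: u) := by
  have hj := hF.j0_le
  have hu : u.length ≤ n - j0 := by simp only [List.length_cons] at hv; omega
  have h1 : Lf (n - j0 - (c :: u).length) (fY d.p n j0 a0 Y W ((c :: u).length - 1)) (c :: u) =
      Lf (n - j0 - (c :: u).length) (fun x => (2 * av n j0 a0 (cut d.p Y))⁻¹ *
        cut d.p (W (j0 + u.length) (ia a0 u)) (ia a0 x)) (c :: u) := by
    have key : ∀ l : Node, l.length = n - j0 - (c :: u).length →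
        fY d.p n j0 a0 Y W ((c :: u).length - 1) (l ++ (c :: u)) =
          (2 * av n j0 a0 (cut d.p Y))⁻¹ *
            cut d.p (W (j0 + u.length) (ia a0 u)) (ia a0 (l ++ (c :: u))) := by
      intro l _
      have e1 : (c :: u).length - 1 = u.length := by simp
      have e2 : l ++ (c :: u) = (l ++ [c]) ++ u := by simp
      unfold fY
      rw [e1, if_pos hu, e2, anc_app (l ++ [c]) u, div_eq_inv_mul]
    exact le_antisymm (Lf_mono_app _ _ fun l hl => (key l hl).le)
      (Lf_mono_app _ _ fun l hl => (key l hl).ge)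
  rw [h1, Lf_smul, Lf_ia (n := n) (j0 := j0) (a0 := a0)
    (cut d.p (W (j0 + u.length) (ia a0 u))) (n - j0 - (c :: u).length) (by omega)]
  unfold arY
  rw [arr_cons, cut_inter_nd, div_eq_inv_mul]

theorem dpY_nonneg (hF : Fam d s0 j0 a0 Y W) (v : Node) : 0 ≤ dpY d.p n j0 a0 Y W v :=
  div_nonneg (av_nonneg (cut_nonneg d.p_nonneg _)) (by have := B_pos hF; linarith)

theorem arY_nonneg (hF : Fam d s0 j0 a0 Y W) (v : Node) : 0 ≤ arY d.p n j0 a0 Y W v :=
  div_nonneg (av_nonneg (cut_nonneg d.p_nonneg _)) (by have := B_pos hF; linarith)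

/-- departure ≤ arrival -/
theorem dpY_le_arY (hF : Fam d s0 j0 a0 Y W) {v : Node} (hv : v.length ≤ n - j0) :
    dpY d.p n j0 a0 Y W v ≤ arY d.p n j0 a0 Y W v := by
  have hj := hF.j0_le
  refine div_le_div_of_nonneg_right ?_ (by have := B_pos hF; linarith)
  exact av_mono fun i _ => cut_mono d.p_nonneg (W_sub_arr hF (by omega)) i

/-- the arrival averages of the children have the departure average as their mean -/
theorem arY_mart (_hF : Fam d s0 j0 a0 Y W) {v : Node} (hv : v.length < n - j0) :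
    (arY d.p n j0 a0 Y W (true :: v) + arY d.p n j0 a0 Y W (false :: v)) / 2 =
      dpY d.p n j0 a0 Y W v := by
  unfold arY dpY
  rw [arr_cons, arr_cons, cut_inter_nd, cut_inter_nd, ia_true, ia_false, List.length_cons,
    List.length_cons, ← add_assoc,
    av_mart (n := n) (j := j0 + v.length) (by omega) (ia a0 v)]
  ring

theorem arY_nil (hF : Fam d s0 j0 a0 Y W) : arY d.p n j0 a0 Y W [] = 1 / 2 := by
  unfold arY
  rw [arr_nil, ia_nil]
  have := B_pos hF
  simp only [List.length_nil, add_zero]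
  field_simp

/-- an alive node: `W` nonempty -/
def LiveY (j0 a0 : ℕ) (W : ℕ → ℕ → Finset ℕ) (v : Node) : Prop :=
  (W (j0 + v.length) (ia a0 v)).Nonempty

theorem arY_le_one (hF : Fam d s0 j0 a0 Y W) {v : Node} (hv : v.length ≤ n - j0)
    (h : LiveY j0 a0 W v) : arY d.p n j0 a0 Y W v ≤ 1 := by
  have hj := hF.j0_le
  have hB := B_pos hF
  unfold arY
  rw [div_le_one (by linarith)]
  exact hF.W_le _ _ (Nat.le_add_right _ _) (by omega) (ia_level a0 v j0) h

theorem dpY_eq_zero {v : Node} (h : ¬ LiveY j0 a0 W v) : dpY d.p n j0 a0 Y W v = 0 := by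
  unfold LiveY at h
  rw [not_nonempty_iff_eq_empty] at h
  unfold dpY
  rw [h]
  have : av n (j0 + v.length) (ia a0 v) (cut d.p ∅) = 0 := by
    unfold av
    rw [sum_eq_zero fun i _ => ?_, zero_div]
    simp [cut]
  rw [this, zero_div]

theorem dpY_le_one (hF : Fam d s0 j0 a0 Y W) {v : Node} (hv : v.length ≤ n - j0) :
    dpY d.p n j0 a0 Y W v ≤ 1 := by
  by_cases h : LiveY j0 a0 W v
  · exact (dpY_le_arY hF hv).trans (arY_le_one hF hv h)
  · rw [dpY_eq_zero h]; norm_num

theorem le_dpY (hF : Fam d s0 j0 a0 Y W) {v : Node} (hv : v.length ≤ n - j0)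
    (h : LiveY j0 a0 W v) : s0 / 2 ≤ dpY d.p n j0 a0 Y W v := by
  have hj := hF.j0_le
  have hB := B_pos hF
  unfold dpY
  rw [le_div_iff₀ (by linarith)]
  have := hF.W_ge _ _ (Nat.le_add_right j0 v.length) (by omega) (ia_level a0 v j0) h
  linarith

theorem arY_le_two (hF : Fam d s0 j0 a0 Y W) {v : Node} (hv : v.length ≤ n - j0) :
    arY d.p n j0 a0 Y W v ≤ 2 := by
  cases v with
  | nil => rw [arY_nil hF]; norm_num
  | cons c u =>
    have hu : u.length < n - j0 := by simp only [List.length_cons] at hv; omega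
    have h1 := arY_mart hF hu
    have h2 := dpY_le_one hF hu.le
    have h3 := arY_nonneg hF (true :: u)
    have h4 := arY_nonneg hF (false :: u)
    cases c
    · linarith
    · linarith

/-- the hypothesis of `LeafData.ok` and of `y_energy_info` -/
theorem Lf_fY_le_two (hF : Fam d s0 j0 a0 Y W) (v : Node) (hv : v.length ≤ n - j0) :
    Lf (n - j0 - v.length) (fY d.p n j0 a0 Y W (v.length - 1)) v ≤ 2 := by
  cases v with
  | nil =>
    have h1 := Lf_fY hF (v := []) (by simp)
    simp only [List.length_nil, Nat.sub_zero] at h1 ⊢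
    rw [h1]
    exact (dpY_le_one hF (by simp)).trans (by norm_num)
  | cons c u =>
    rw [Lf_fY' hF c hv]
    exact arY_le_two hF hv

theorem g0_le (hF : Fam d s0 j0 a0 Y W) : Lf (n - j0) (fY d.p n j0 a0 Y W 0) [] ≤ 1 / 2 := by
  have h1 := Lf_fY hF (v := []) (by simp)
  simp only [List.length_nil, Nat.sub_zero] at h1
  rw [h1, ← arY_nil hF]
  exact dpY_le_arY hF (by simp)

/-- the support of the alive density -/
theorem fY_supp (hF : Fam d s0 j0 a0 Y W) {x : Node} (h : fY d.p n j0 a0 Y W 0 x ≠ 0) :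
    ia a0 x ∈ Y := by
  have hj := hF.j0_le
  unfold fY at h
  rw [if_pos (Nat.zero_le _)] at h
  have h1 : H233.anc 0 x = [] := by
    unfold H233.anc
    simp
  rw [h1] at h
  have h2 := W_sub_arr hF (v := []) (by simpa using hj)
  rw [arr_nil] at h2
  unfold cut at h
  split_ifs at h with h3
  · exact h2 h3
  · simp at h

/-- **Row E1-C: the `y`-energy of an epoch.** -/
theorem y_energy_epoch {A c : ℝ} {J : List (Un n b)} (hE : Epoch d A c s0 J j0 a0 Y W) :
    S (n - j0) (fun v => ∑ q, ((Lf (n - j0 - (true :: v).length)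
            (fun y => fY d.p n j0 a0 Y W ((true :: v).length - 1) y *
              kerL J q (ia a0 y : ZMod (2 ^ (n + b)))) (true :: v) -
          Lf (n - j0 - (false :: v).length)
            (fun y => fY d.p n j0 a0 Y W ((false :: v).length - 1) y *
              kerL J q (ia a0 y : ZMod (2 ^ (n + b)))) (false :: v)) / 2) ^ 2 /
        Lf (n - j0 - v.length) (fun y => fY d.p n j0 a0 Y W v.length y *
          kerL J q (ia a0 y : ZMod (2 ^ (n + b)))) v) [] ≤
      4 + J.length * |ep c D * D| := by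
  have hF := hE.toFam
  have h1 := list_energy hE.ok (n - j0) (fY d.p n j0 a0 Y W)
    (fun x => (ia a0 x : ZMod (2 ^ (n + b)))) (fY_nonneg hF) (fY_anti hF) (Lf_fY_le_two hF)
    (fun x _ hx => ⟨ia a0 x, fY_supp hF hx, rfl⟩)
  refine h1.trans ?_
  set g0 := Lf (n - j0) (fY d.p n j0 a0 Y W 0) [] with hg0
  have h2 : 0 ≤ g0 := Lf_nonneg _ _ fun x _ => fY_nonneg hF 0 x
  have h3 : g0 ≤ 1 / 2 := g0_le hF
  have h4 : log 2 ≤ 1 := by
    have := log_le_sub_one_of_pos (show (0:ℝ) < 2 by norm_num)
    linarith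
  have h5 : - (g0 * log g0) ≤ 1 := by
    rcases h2.eq_or_lt with h | h
    · rw [← h]; norm_num
    · have h6 := one_sub_inv_le_log_of_pos h
      have h7 := mul_le_mul_of_nonneg_left h6 h.le
      have e : g0 * (1 - g0⁻¹) = g0 - 1 := by field_simp
      rw [e] at h7
      linarith
  have h6 : (1 + log 2) * g0 ≤ 1 := by
    have : (1 + log 2) * g0 ≤ 2 * (1 / 2) :=
      mul_le_mul (by linarith) h3 h2 (by norm_num)
    linarith
  have h7 : (J.length : ℝ) * (ep c D * D) * g0 ≤ J.length * |ep c D * D| * (1 / 2) := by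
    have h8 : (J.length : ℝ) * (ep c D * D) ≤ J.length * |ep c D * D| :=
      mul_le_mul_of_nonneg_left (le_abs_self _) (Nat.cast_nonneg _)
    have h9 : (0 : ℝ) ≤ J.length * |ep c D * D| := by positivity
    calc _ ≤ J.length * |ep c D * D| * g0 := mul_le_mul_of_nonneg_right h8 h2
      _ ≤ _ := mul_le_mul_of_nonneg_left h3 h9
  linarith

/-! ## cuts -/

/-- the `y`-mass cut at all nodes is at most `1/2` -/
theorem S_cut_le (hF : Fam d s0 j0 a0 Y W) :
    S (n - j0 + 1) (fun v => arY d.p n j0 a0 Y W v - dpY d.p n j0 a0 Y W v) [] ≤ 1 / 2 := by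
  rw [← arY_nil hF]
  exact S_cuts (n - j0) [] (fun w hw => (arY_mart hF (by simpa using hw)).le)
    fun w _ => dpY_nonneg hF w

open Classical in
/-- partial cuts: `W` nonempty and smaller than the arrival set -/
theorem S_partial_le (hF : Fam d s0 j0 a0 Y W) (hs0 : 0 < s0) (hl : 0 < ll D) :
    S (n - j0 + 1) (fun v => if LiveY j0 a0 W v ∧
        W (j0 + v.length) (ia a0 v) ≠ arr n j0 Y W (j0 + v.length) (ia a0 v) then 1 else 0) []
      ≤ (ll D : ℝ) ^ 10 / s0 := by
  have hj := hF.j0_le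
  have hB := B_pos hF
  have hl' : (0 : ℝ) < (ll D : ℝ) ^ 10 := by positivity
  have h1 : S (n - j0 + 1) (fun v => if LiveY j0 a0 W v ∧
        W (j0 + v.length) (ia a0 v) ≠ arr n j0 Y W (j0 + v.length) (ia a0 v) then 1 else 0) []
      ≤ S (n - j0 + 1) (fun v => (2 * (ll D : ℝ) ^ 10 / s0) *
        (arY d.p n j0 a0 Y W v - dpY d.p n j0 a0 Y W v)) [] := by
    refine S_mono _ [] fun v hv => ?_
    have hvn : v.length ≤ n - j0 := by simp only [List.length_nil] at hv; omega
    have hnn : 0 ≤ arY d.p n j0 a0 Y W v - dpY d.p n j0 a0 Y W v :=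
      sub_nonneg.mpr (dpY_le_arY hF hvn)
    split_ifs with h
    · obtain ⟨h2, h3⟩ := h
      rcases hF.W_cut _ _ (Nat.le_add_right j0 v.length) (by omega) (ia_level a0 v j0) h2 with
        h4 | h4
      · exact absurd h4 h3
      · have h5 : dpY d.p n j0 a0 Y W v ≤ (1 - ((ll D : ℝ) ^ 10)⁻¹) * arY d.p n j0 a0 Y W v := by
          unfold dpY arY
          rw [← mul_div_assoc]
          exact div_le_div_of_nonneg_right h4 (by linarith)
        have h6 := le_dpY hF hvn h2
        have h7 := dpY_le_arY hF hvn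
        have h8 : ((ll D : ℝ) ^ 10)⁻¹ * (s0 / 2) ≤
            arY d.p n j0 a0 Y W v - dpY d.p n j0 a0 Y W v := by
          have h9 : ((ll D : ℝ) ^ 10)⁻¹ * (s0 / 2) ≤
              ((ll D : ℝ) ^ 10)⁻¹ * arY d.p n j0 a0 Y W v :=
            mul_le_mul_of_nonneg_left (h6.trans h7) (by positivity)
          linarith
        calc (1 : ℝ) = (2 * (ll D : ℝ) ^ 10 / s0) * (((ll D : ℝ) ^ 10)⁻¹ * (s0 / 2)) := by
              field_simp
          _ ≤ _ := mul_le_mul_of_nonneg_left h8 (by positivity)
    · exact mul_nonneg (by positivity) hnn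
  refine h1.trans ?_
  rw [S_smul]
  calc (2 * (ll D : ℝ) ^ 10 / s0) *
        S (n - j0 + 1) (fun v => arY d.p n j0 a0 Y W v - dpY d.p n j0 a0 Y W v) []
      ≤ (2 * (ll D : ℝ) ^ 10 / s0) * (1 / 2) :=
        mul_le_mul_of_nonneg_left (S_cut_le hF) (by positivity)
    _ = (ll D : ℝ) ^ 10 / s0 := by ring

/-- a dead node has dead children -/
theorem live_of_cons (hF : Fam d s0 j0 a0 Y W) {c : Bool} {v : Node}
    (hv : (c :: v).length ≤ n - j0) (h : LiveY j0 a0 W (c :: v)) : LiveY j0 a0 W v := by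
  have hj := hF.j0_le
  have h1 := W_sub_arr hF (v := c :: v) (by omega)
  rw [arr_cons] at h1
  exact h.mono (h1.trans inter_subset_left)

open Classical in
/-- full exits are disjoint: `W` empty at the node, nonempty at its parent (or `v` is the root) -/
theorem S_full_le (hF : Fam d s0 j0 a0 Y W) :
    S (n - j0 + 1) (fun v => if ¬ LiveY j0 a0 W v ∧ (v = [] ∨ LiveY j0 a0 W v.tail)
      then 1 else 0) [] ≤ 1 := by
  have h1 : S (n - j0 + 1) (fun v => if ¬ LiveY j0 a0 W v ∧ (v = [] ∨ LiveY j0 a0 W v.tail)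
      then (1 : ℝ) else 0) [] ≤
      S (n - j0 + 1) (fun v => (if v = [] ∨ LiveY j0 a0 W v.tail then (1 : ℝ) else 0) -
        (if LiveY j0 a0 W v then 1 else 0)) [] := by
    refine S_mono _ [] fun v hv => ?_
    have hvn : v.length ≤ n - j0 := by simp only [List.length_nil] at hv; omega
    by_cases h : LiveY j0 a0 W v
    · simp only [h, not_true_eq_false, false_and, if_false, if_true]
      cases v with
      | nil => simp
      | cons c u =>
        have := live_of_cons hF hvn h
        simp [this]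
    · by_cases h' : v = [] ∨ LiveY j0 a0 W v.tail
      · simp [h, h']
      · simp [h, h']
  refine h1.trans ?_
  have h2 := S_cuts (n - j0) (Φ := fun v => if LiveY j0 a0 W v then (1 : ℝ) else 0)
    (Φ' := fun v => if v = [] ∨ LiveY j0 a0 W v.tail then (1 : ℝ) else 0) []
    (fun w _ => by
      by_cases h : LiveY j0 a0 W w
      · simp [h]
      · simp [h])
    (fun w _ => by
      show (0 : ℝ) ≤ if LiveY j0 a0 W w then (1 : ℝ) else 0
      split_ifs <;> norm_num)
  simpa using h2

end fam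

end Vale.Agent.P091.T.H587
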