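import Vale.Agent.P065.H587.Ent2

/-!
# P091, T block, row (H5): chain rules for the potentials `K`, `I` and the type entropy (helper587)

Finite alphabets, in the language of `Vale.Agent.P065.H587.Ent`: random variables are functions
on a finite sample space.  `Y` is the leaf, `L` the values of the units already present, `E` the
exit (node + piece), `V` the position (node) of the exit, `L'` the value of the new unit.
-/

set_option autoImplicit false

open Finset Real

noncomputable section

namespace Vale.Agent.P091.T.H587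

open Vale.Agent.P065.Ent

variable {Ω : Type*} [Fintype Ω] {α β γ δ ε : Type*} {μ : Ω → ℝ}

/-- the divergence of `Y` given `L` from the reference weight `u` (`u ω` is the reference
probability of the value `Y ω`) -/
def KU (μ : Ω → ℝ) (Y : Ω → α) (L : Ω → β) (u : Ω → ℝ) : ℝ :=
  (∑ ω, μ ω * (- log (u ω))) - Hc μ Y L

/-- `KU` is nonnegative when the reference is a sub-probability given the values -/
theorem KU_nonneg [DecidableEq α] (hμ : IsProb μ) (Y : Ω → α) (L : Ω → β) (q : β → α → ℝ)
    (hq : ∀ ω, 0 < μ ω → 0 < q (L ω) (Y ω)) (hq0 : ∀ ω, ∀ x ∈ univ.image Y, 0 ≤ q (L ω) x)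
    (hq1 : ∀ ω, ∑ x ∈ univ.image Y, q (L ω) x ≤ 1) :
    0 ≤ KU μ Y L (fun ω => q (L ω) (Y ω)) :=
  sub_nonneg.mpr (gibbs hμ Y L q hq hq0 hq1)

/-- conditioning on more values raises `KU` -/
theorem KU_mono (hμ : IsProb μ) (Y : Ω → α) {L : Ω → β} {M : Ω → γ} (u : Ω → ℝ)
    (h : Det M L) : KU μ Y L u ≤ KU μ Y M u := by
  unfold KU
  have := Hc_anti hμ Y h
  linarith

/-- exact change of the reference: passing to sub-nodes of reference mass `w` -/
theorem KU_div (hμ : IsProb μ) (Y : Ω → α) (L : Ω → β) (u w : Ω → ℝ)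
    (hu : ∀ ω, 0 < μ ω → 0 < u ω) (hw : ∀ ω, 0 < μ ω → 0 < w ω) :
    KU μ Y L (fun ω => u ω / w ω) = KU μ Y L u - ∑ ω, μ ω * (- log (w ω)) := by
  unfold KU
  have : ∑ ω, μ ω * (- log (u ω / w ω)) =
      (∑ ω, μ ω * (- log (u ω))) - ∑ ω, μ ω * (- log (w ω)) := by
    rw [← sum_sub_distrib]
    refine sum_congr rfl fun ω _ => ?_
    rcases (hμ.nonneg ω).eq_or_lt with h0 | h0
    · rw [← h0]; ring
    · rw [log_div (hu ω h0).ne' (hw ω h0).ne']; ring
  rw [this]; ring

/-- exact change of the values -/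
theorem KU_pair (μ : Ω → ℝ) (Y : Ω → α) (M : Ω → γ) (L : Ω → β) (u : Ω → ℝ) :
    KU μ Y (fun ω => (M ω, L ω)) u = KU μ Y L u + I μ Y M L := by
  unfold KU I
  ring

/-- `I (Y; E | L) = H (E | L)` when `E` is a function of `Y` -/
theorem I_of_det (_hμ : IsProb μ) {Y : Ω → α} {E : Ω → ε} (L : Ω → β) (h : Det Y E) :
    I μ Y E L = Hc μ E L := by
  rw [I_symm]
  unfold I
  rw [Hc_eq_zero ((det_fst Y L).trans h)]
  ring

/-- **The potential `K` at an exit** (row (H5)): `E` the exit (a function of the leaf `Y`), `V`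
its node (a function of `E`), `w` the reference mass of the node, `M` the new values.
`K' = K - D(stopped path | L) + H (piece | node, L) + I (Y; M | E, L)`, where
`D (stopped path | L) = E log (1/w) - H (V | L)`. -/
theorem K_exit (hμ : IsProb μ) (Y : Ω → α) (L : Ω → β) (E : Ω → ε) (V : Ω → δ) (M : Ω → γ)
    (u w : Ω → ℝ) (hu : ∀ ω, 0 < μ ω → 0 < u ω) (hw : ∀ ω, 0 < μ ω → 0 < w ω)
    (hE : Det Y E) (hV : Det E V) :
    KU μ Y (fun ω => (M ω, (E ω, L ω))) (fun ω => u ω / w ω) =
      KU μ Y L u - KU μ V L w + Hc μ E (fun ω => (V ω, L ω))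
        + I μ Y M (fun ω => (E ω, L ω)) := by
  rw [KU_div hμ Y _ u w hu hw, KU_pair, KU_pair, I_of_det hμ L hE]
  have h1 : Hc μ E L = Hc μ V L + Hc μ E (fun ω => (V ω, L ω)) := by
    have := Hc_pair μ E V L
    have h2 : Hc μ (fun ω => (E ω, V ω)) L = Hc μ E L :=
      Hc_congr (det_fst E V) ((Det.refl E).pair hV) (Det.refl L) (Det.refl L)
    linarith
  unfold KU
  linarith

/-- the divergence of the stopped path from the reference is nonnegative -/
theorem stop_nonneg [DecidableEq δ] (hμ : IsProb μ) (V : Ω → δ) (L : Ω → β) (w : δ → ℝ)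
    (hw : ∀ ω, 0 < μ ω → 0 < w (V ω)) (hw0 : ∀ v ∈ univ.image V, 0 ≤ w v)
    (hw1 : ∑ v ∈ univ.image V, w v ≤ 1) : 0 ≤ KU μ V L (fun ω => w (V ω)) :=
  KU_nonneg hμ V L (fun _ v => w v) hw (fun _ v hv => hw0 v hv) (fun _ => hw1)

/-- `KU` given the exit is the average over the exits of the `KU` of the conditional laws -/
theorem KU_fiber [DecidableEq ε] (hμ : IsProb μ) (Y : Ω → α) (L : Ω → β) (E : Ω → ε)
    (u : Ω → ℝ) : KU μ Y (fun ω => (L ω, E ω)) u =
      ∑ e ∈ univ.image E, Pr μ E e * KU (cnd μ E e) Y L u := by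
  unfold KU
  have h1 : ∑ ω, μ ω * (- log (u ω)) =
      ∑ e ∈ univ.image E, Pr μ E e * ∑ ω, cnd μ E e ω * (- log (u ω)) :=
    (sum_cnd_fiber hμ E (fun _ ω => - log (u ω)))
  rw [h1, Hc_fiber' hμ Y L E, ← sum_sub_distrib]
  refine sum_congr rfl fun e _ => ?_
  ring

/-- the value information at the exits: `I (Y; (M, L) | E) ≤ I (Y; L) + I (Y; M | E, L)` -/
theorem I_exit (hμ : IsProb μ) (Y : Ω → α) (L : Ω → β) (E : Ω → ε) (M : Ω → γ)
    (hE : Det Y E) :
    I μ Y (fun ω => (M ω, L ω)) E ≤
      I μ Y L (fun _ => ()) + I μ Y M (fun ω => (E ω, L ω)) := by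
  have h1 := I_chain μ Y M L E
  have h2 : I μ Y M (fun ω => (L ω, E ω)) = I μ Y M (fun ω => (E ω, L ω)) :=
    I_congr (Det.refl Y) (Det.refl Y) (Det.refl M) (Det.refl M) (det_swap L E) (det_swap E L)
  have h3 : I μ Y L E ≤ I μ Y L (fun _ => ()) := by
    -- `I (Y; (L, E)) = I (Y; E) + I (Y; L | E) = I (Y; L) + I (Y; E | L)`
    have a := I_chain μ Y L E (fun _ => ())
    have b := I_chain μ Y E L (fun _ => ())
    have c : I μ Y (fun ω => (L ω, E ω)) (fun _ => ()) =
        I μ Y (fun ω => (E ω, L ω)) (fun _ => ()) :=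
      I_congr (Det.refl Y) (Det.refl Y) (det_swap L E) (det_swap E L) (Det.refl _) (Det.refl _)
    have d : I μ Y L (fun ω => (E ω, ())) = I μ Y L E :=
      I_congr (Det.refl Y) (Det.refl Y) (Det.refl L) (Det.refl L) (det_fst _ _)
        ((Det.refl E).pair (det_const E ()))
    have e : I μ Y E (fun ω => (L ω, ())) = I μ Y E L :=
      I_congr (Det.refl Y) (Det.refl Y) (Det.refl E) (Det.refl E) (det_fst _ _)
        ((Det.refl L).pair (det_const L ()))
    rw [d] at a
    rw [e] at b
    have f : I μ Y E L ≤ I μ Y E (fun _ => ()) := by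
      rw [I_of_det hμ L hE, I_of_det hμ (fun _ => ()) hE]
      exact Hc_anti hμ E (det_const L ())
    linarith
  rw [h1, h2]
  linarith

/-! ## The entropy of a sequence of extractions -/

/-- one extraction: a part of mass `m` of a rest of mass `s` -/
theorem extract_one {s m : ℝ} (h0 : 0 < m) (h1 : m ≤ s) :
    - (m * log m) - (s - m) * log (s - m) ≤ - (s * log s) + m * (log (s / m) + 1) := by
  have hs : 0 < s := h0.trans_le h1
  rcases h1.eq_or_lt with h | h
  · subst h
    simp only [sub_self, zero_mul, sub_zero, div_self h0.ne', log_one, zero_add, mul_one]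
    linarith
  · have h2 : 0 < s - m := by linarith
    have h3 : log (s / (s - m)) ≤ s / (s - m) - 1 := log_le_sub_one_of_pos (by positivity)
    have h4 : (s - m) * log (s / (s - m)) ≤ m := by
      calc (s - m) * log (s / (s - m)) ≤ (s - m) * (s / (s - m) - 1) :=
            mul_le_mul_of_nonneg_left h3 h2.le
        _ = m := by field_simp; ring
    rw [log_div hs.ne' h2.ne'] at h4
    rw [log_div hs.ne' h0.ne']
    nlinarith

/-- the entropy of a sequence of `n` extractions of masses `m i` from the rests `s i` -/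
theorem extract_sum (s m : ℕ → ℝ) (n : ℕ) (h0 : ∀ i < n, 0 < m i) (h1 : ∀ i < n, m i ≤ s i)
    (h2 : ∀ i < n, s (i + 1) = s i - m i) :
    (∑ i ∈ range n, - (m i * log (m i))) - s n * log (s n) ≤
      - (s 0 * log (s 0)) + ∑ i ∈ range n, m i * (log (s i / m i) + 1) := by
  induction n with
  | zero => simp
  | succ n ih =>
    have ih' := ih (fun i hi => h0 i (by omega)) (fun i hi => h1 i (by omega))
      (fun i hi => h2 i (by omega))
    have h3 := extract_one (h0 n (by omega)) (h1 n (by omega))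
    rw [sum_range_succ, sum_range_succ, h2 n (by omega)]
    linarith

/-- the entropy of the index of extraction: `τ ω = i < n` if `ω` was extracted at step `i`, and
`τ ω = n` for the final rest; every extraction takes at least the fraction `f i` of the current
rest -/
theorem extract_entropy (hμ : IsProb μ) (τ : Ω → ℕ) (n : ℕ) (hτ : ∀ ω, τ ω ≤ n) (f : ℕ → ℝ)
    (hf : ∀ i < n, 0 < f i)
    (hm : ∀ i < n, 0 < Pr μ τ i)
    (hfm : ∀ i < n, f i * (∑ ω, if i ≤ τ ω then μ ω else 0) ≤ Pr μ τ i) :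
    H μ τ ≤ ∑ i ∈ range n, Pr μ τ i * (log (1 / f i) + 1) := by
  classical
  set s : ℕ → ℝ := fun i => ∑ ω, if i ≤ τ ω then μ ω else 0 with hs
  have hs0 : s 0 = 1 := by simp [hs, hμ.sum]
  have hstep : ∀ i, s (i + 1) = s i - Pr μ τ i := by
    intro i
    simp only [hs]
    unfold Pr
    rw [← sum_sub_distrib]
    refine sum_congr rfl fun ω _ => ?_
    by_cases h1 : τ ω = i
    · simp [h1]
    · by_cases h2 : i ≤ τ ω
      · have : i + 1 ≤ τ ω := by omega
        simp [h1, h2, this]
      · have : ¬ i + 1 ≤ τ ω := by omega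
        simp [h1, h2, this]
  have hsn : s n = Pr μ τ n := by
    simp only [hs]
    unfold Pr
    refine sum_congr rfl fun ω _ => ?_
    have := hτ ω
    by_cases h : τ ω = n
    · simp [h]
    · have : ¬ n ≤ τ ω := by omega
      simp [h, this]
  have hle : ∀ i, Pr μ τ i ≤ s i := by
    intro i
    have : 0 ≤ s (i + 1) := by
      simp only [hs]
      exact sum_nonneg fun ω _ => by split_ifs; exacts [hμ.nonneg ω, le_rfl]
    have := hstep i
    linarith
  have key := extract_sum s (Pr μ τ) n hm (fun i _ => hle i) (fun i _ => hstep i)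
  -- the entropy as a sum over the values
  have hH : H μ τ = ∑ i ∈ range (n + 1), - (Pr μ τ i * log (Pr μ τ i)) := by
    unfold H
    have h1 : ∑ ω, μ ω * (- log (Pr μ τ (τ ω))) =
        ∑ i ∈ range (n + 1), ∑ ω, if τ ω = i then μ ω * (- log (Pr μ τ i)) else 0 := by
      rw [sum_comm]
      refine sum_congr rfl fun ω _ => ?_
      rw [sum_ite_eq (range (n + 1)) (τ ω) (fun i => μ ω * (- log (Pr μ τ i))),
        if_pos (mem_range.mpr (by have := hτ ω; omega))]
    rw [h1]
    refine sum_congr rfl fun i _ => ?_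
    have h2 : ∀ ω, (if τ ω = i then μ ω * (- log (Pr μ τ i)) else 0) =
        (if τ ω = i then μ ω else 0) * (- log (Pr μ τ i)) := fun ω => by
      split_ifs <;> ring
    have h5 : ∑ ω, (if τ ω = i then μ ω else 0) = Pr μ τ i := by
      unfold Pr
      exact sum_congr rfl fun ω _ => by split_ifs <;> rfl
    rw [sum_congr rfl fun ω _ => h2 ω, ← sum_mul, h5, mul_neg]
  rw [hH, sum_range_succ, ← hsn, hsn]
  have h3 : ∑ i ∈ range n, Pr μ τ i * (log (s i / Pr μ τ i) + 1) ≤
      ∑ i ∈ range n, Pr μ τ i * (log (1 / f i) + 1) := by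
    refine sum_le_sum fun i hi => ?_
    have hi' := mem_range.mp hi
    have p := hm i hi'
    refine mul_le_mul_of_nonneg_left ?_ p.le
    have q : 0 < s i := p.trans_le (hle i)
    have r : s i / Pr μ τ i ≤ 1 / f i := by
      rw [div_le_div_iff₀ p (hf i hi')]
      have := hfm i hi'
      linarith [mul_comm (f i) (s i)]
    have := log_le_log (by positivity) r
    linarith
  have h4 : - (s 0 * log (s 0)) = 0 := by rw [hs0]; simp
  rw [h4, hsn] at key
  linarith

end Vale.Agent.P091.T.H587
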