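import Vale.Agent.P091.T.H587.FamZ
import Vale.Agent.P091.T.H103.Inst

/-! # The `y`-energy of an epoch for the data of `H103/Inst` -/

set_option autoImplicit false

open Finset Real
open Vale.Agent.P091.Spec

noncomputable section

namespace Vale.Agent.P091.T.H587

open Vale.Agent.P091.H413 Vale.Agent.P091.T Vale.Agent.P091.T.H350

variable {C1 D : ℝ} {n b : ℕ} {ι : Type} [Fintype ι] {d : ZData C1 D n b ι} {s0 : ℝ} {j0 a0 : ℕ}
  {Y : Finset ℕ} {W : ℕ → ℕ → Finset ℕ}

/-- alive density on departure from the node `v`, at the leaf `y` -/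
def fD (d : ZData C1 D n b ι) (j0 a0 : ℕ) (Y : Finset ℕ) (W : ℕ → ℕ → Finset ℕ) (v y : Node) :
    ℝ :=
  cut d.p (W (j0 + v.length) (ia a0 v)) (ia a0 y) / (2 * av n j0 a0 (cut d.p Y))

theorem anc_of_suffix {v y : Node} (h : v <:+ y) : H233.anc v.length y = v := by
  obtain ⟨l, rfl⟩ := h
  rw [H233.anc_append l le_rfl, H233.anc_self]

theorem fY_eq_fD {v y : Node} (hv : v.length ≤ n - j0) (h : v <:+ y) :
    fY d.p n j0 a0 Y W v.length y = fD d j0 a0 Y W v y := by
  rw [fY_eq hv]
  unfold gY fD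
  rw [anc_of_suffix h]

theorem fD_nonneg (hF : Fam d s0 j0 a0 Y W) (v y : Node) : 0 ≤ fD d j0 a0 Y W v y :=
  div_nonneg (cut_nonneg d.p_nonneg _ _) (by have := B_pos hF; linarith)

theorem fD_anti (hF : Fam d s0 j0 a0 Y W) (c : Bool) {v y : Node}
    (hv : v.length + 1 ≤ n - j0) (hy : y.length = n - j0) (h : (c :: v) <:+ y) :
    fD d j0 a0 Y W (c :: v) y ≤ fD d j0 a0 Y W v y := by
  rw [← fY_eq_fD (by simpa using hv) h, ← fY_eq_fD (by omega) (H103.suf_child h)]
  exact fY_anti hF v.length y hy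

theorem av_fD_le_one (hF : Fam d s0 j0 a0 Y W) {v : Node} (hv : v.length ≤ n - j0) :
    Lf (n - j0 - v.length) (fD d j0 a0 Y W v) v ≤ 1 := by
  have h1 : Lf (n - j0 - v.length) (fD d j0 a0 Y W v) v =
      Lf (n - j0 - v.length) (fY d.p n j0 a0 Y W v.length) v :=
    H103.Lf_congr _ _ fun y _ h => (fY_eq_fD hv h).symm
  rw [h1, Lf_fY hF hv]
  exact dpY_le_one hF hv

/-- **(d)** the `y`-energy of the data `T` of a stage -/
theorem y_energy_dat {A c : ℝ} {J : List (Un n b)} (hE : Epoch d A c s0 J j0 a0 Y W)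
    {κt I : Type} [Fintype κt] [Fintype I] (T : H103.Dat κt I (H120.QJ J)) (hn : T.n = n - j0)
    (hf : ∀ v y : Node, v.length < n - j0 → y.length = n - j0 → v <:+ y →
      T.f v y = fD d j0 a0 Y W v y)
    (hP : ∀ (q : H120.QJ J) (y : Node), y.length = n - j0 → T.P q y = H120.kerJ J (ia a0 y) q) :
    S T.n (fun v => ∑ q, T.sys.dG q v ^ 2 / T.sys.G q v) [] ≤
      4 + J.length * |ep c D * D| := by
  have hS : ∀ F : Node → ℝ, S T.n F [] = S (n - j0) F [] := fun F => by rw [hn]
  rw [hS]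
  refine le_trans (S_mono (n - j0) [] fun v hv => ?_) (y_energy_Z hE)
  rw [List.length_nil, Nat.add_zero] at hv
  refine le_of_eq (sum_congr rfl fun q _ => ?_)
  have h0 : T.sys.G q v = Lf (n - j0 - v.length)
      (fun y => fY d.p n j0 a0 Y W v.length y * H120.kerJ J (ia a0 y) q) v := by
    show Lf (T.n - v.length) (fun y => T.f v y * T.P q y) v = _
    rw [hn]
    refine H103.Lf_congr _ _ fun y hy h => ?_
    rw [hf v y hv (by omega) h, hP q y (by omega), fY_eq_fD hv.le h]
  have h1 : ∀ c : Bool, T.sys.G' q (c :: v) = Lf (n - j0 - (c :: v).length)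
      (fun y => fY d.p n j0 a0 Y W ((c :: v).length - 1) y * H120.kerJ J (ia a0 y) q)
      (c :: v) := by
    intro c
    show Lf (T.n - (c :: v).length) (fun y => T.f v y * T.P q y) (c :: v) = _
    rw [hn]
    refine H103.Lf_congr _ _ fun y hy h => ?_
    have h2 : y.length = n - j0 := by
      simp only [List.length_cons] at hy
      omega
    rw [hf v y hv h2 (H103.suf_child h), hP q y h2]
    have h3 : (c :: v).length - 1 = v.length := by simp
    rw [h3, fY_eq_fD hv.le (H103.suf_child h)]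
  unfold ESys.dG
  rw [h0, h1 true, h1 false]

end Vale.Agent.P091.T.H587
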