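import Vale.Agent.P091.T.H587.FamY
import Vale.Agent.P091.T.H120.Rep3
import Vale.Agent.P091.T.H316.Stage

/-! # The `y`-side of an epoch: letter averages on the relative tree

`gY` = density without the guard beyond the last level, `MY κ u w` = letter average of the class
`κ` over the node `w` for the live set of the node `u`, normalised by `2 B`. -/

set_option autoImplicit false

open Finset Real
open Vale.Agent.P091.Spec

noncomputable section

namespace Vale.Agent.P091.T.H587

open Vale.Agent.P091.H413 Vale.Agent.P091.T Vale.Agent.P091.T.H350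

variable {C1 D : ℝ} {n b : ℕ} {ι : Type} [Fintype ι] {d : ZData C1 D n b ι} {s0 : ℝ} {j0 a0 : ℕ}
  {Y : Finset ℕ} {W : ℕ → ℕ → Finset ℕ}

/-- alive density after the modifications of level `j`, no guard -/
def gY (d : ZData C1 D n b ι) (j0 a0 : ℕ) (Y : Finset ℕ) (W : ℕ → ℕ → Finset ℕ) (j : ℕ)
    (y : Node) : ℝ :=
  cut d.p (W (j0 + j) (ia a0 (H233.anc j y))) (ia a0 y) / (2 * av n j0 a0 (cut d.p Y))

/-- letter average over `w` with the live set of `u` -/
def MY (d : ZData C1 D n b ι) (j0 a0 : ℕ) (Y : Finset ℕ) (W : ℕ → ℕ → Finset ℕ) (κ : ι)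
    (u w : Node) : ℂ :=
  BZ n b (cut d.p (W (j0 + u.length) (ia a0 u))) (d.r κ) (j0 + w.length) (ia a0 w)
    / ((2 * av n j0 a0 (cut d.p Y) : ℝ) : ℂ)

theorem Lc_congr_app (m : ℕ) {F G : Node → ℂ} (v : Node)
    (h : ∀ u : Node, u.length = m → F (u ++ v) = G (u ++ v)) : Lc m F v = Lc m G v := by
  induction m generalizing v with
  | zero => exact h [] rfl
  | succ m ih =>
    simp only [Lc]
    rw [ih (true :: v) (fun u hu => by
        have := h (u ++ [true]) (by simp [hu])
        simpa using this),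
      ih (false :: v) (fun u hu => by
        have := h (u ++ [false]) (by simp [hu])
        simpa using this)]

/-- the density with the guard is the density without it on the levels `≤ n - j0` -/
theorem fY_eq {j : ℕ} (hj : j ≤ n - j0) (y : Node) :
    fY d.p n j0 a0 Y W j y = gY d j0 a0 Y W j y := by
  unfold fY gY
  rw [if_pos hj]

theorem zY_nonneg (hF : Fam d s0 j0 a0 Y W) (j : ℕ) (y : Node) :
    0 ≤ gY d j0 a0 Y W j y :=
  div_nonneg (cut_nonneg d.p_nonneg _ _) (by have := B_pos hF; linarith)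

theorem zY_anti (hF : Fam d s0 j0 a0 Y W) {j : ℕ} (hj : j + 1 ≤ n - j0) {y : Node}
    (hy : y.length = n - j0) : gY d j0 a0 Y W (j + 1) y ≤ gY d j0 a0 Y W j y := by
  rw [← fY_eq hj, ← fY_eq (by omega)]
  exact fY_anti hF j y hy

/-- departure averages -/
theorem Lf_zY (hF : Fam d s0 j0 a0 Y W) {v : Node} (hv : v.length ≤ n - j0) :
    Lf (n - j0 - v.length) (gY d j0 a0 Y W v.length) v = dpY d.p n j0 a0 Y W v := by
  rw [← Lf_fY hF hv]
  exact Lf_congr _ _ fun y _ => (fY_eq hv y).symm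

/-- arrival averages -/
theorem Lf_zY' (hF : Fam d s0 j0 a0 Y W) (c : Bool) {u : Node} (hv : (c :: u).length ≤ n - j0) :
    Lf (n - j0 - (c :: u).length) (gY d j0 a0 Y W ((c :: u).length - 1)) (c :: u) =
      arY d.p n j0 a0 Y W (c :: u) := by
  rw [← Lf_fY' hF c hv]
  exact Lf_congr _ _ fun y _ => (fY_eq (by omega) y).symm

/-- the hypothesis of `LeafData.ok` -/
theorem Lf_zY_le_two (hF : Fam d s0 j0 a0 Y W) (v : Node) (hv : v.length ≤ n - j0) :
    Lf (n - j0 - v.length) (gY d j0 a0 Y W (v.length - 1)) v ≤ 2 := by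
  refine le_trans (le_of_eq ?_) (Lf_fY_le_two hF v hv)
  exact Lf_congr _ _ fun y _ => (fY_eq (by omega) y).symm

/-- the letter average of `MZ` as an average over leaves: node `l ++ v` below `v` -/
theorem MZ_eq (hF : Fam d s0 j0 a0 Y W) (κ : ι) (l v : Node) (hv : (l ++ v).length ≤ n - j0) :
    MY d j0 a0 Y W κ v (l ++ v) =
      Lc (n - j0 - (l ++ v).length)
        (fun y => (gY d j0 a0 Y W v.length y : ℂ) * ch n b (-(d.r κ * (ia a0 y : ℕ))))
        (l ++ v) := by
  have hj := hF.j0_le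
  have key : ∀ u : Node, u.length = n - j0 - (l ++ v).length →
      (gY d j0 a0 Y W v.length (u ++ (l ++ v)) : ℂ) *
          ch n b (-(d.r κ * (ia a0 (u ++ (l ++ v)) : ℕ))) =
        ((2 * av n j0 a0 (cut d.p Y) : ℝ) : ℂ)⁻¹ *
          ((cut d.p (W (j0 + v.length) (ia a0 v)) (ia a0 (u ++ (l ++ v))) : ℂ) *
            ch n b (-(d.r κ * (ia a0 (u ++ (l ++ v)) : ℕ)))) := by
    intro u _
    unfold gY
    rw [← List.append_assoc u l v, anc_app (u ++ l) v]
    push_cast
    ring
  have h1 : Lc (n - j0 - (l ++ v).length)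
        (fun y => (gY d j0 a0 Y W v.length y : ℂ) * ch n b (-(d.r κ * (ia a0 y : ℕ))))
        (l ++ v) =
      Lc (n - j0 - (l ++ v).length)
        (fun y => ((2 * av n j0 a0 (cut d.p Y) : ℝ) : ℂ)⁻¹ *
          ((cut d.p (W (j0 + v.length) (ia a0 v)) (ia a0 y) : ℂ) *
            ch n b (-(d.r κ * (ia a0 y : ℕ))))) (l ++ v) :=
    Lc_congr_app _ _ key
  rw [h1, Lc_mul_left, Lc_ia (n := n) (j0 := j0) (a0 := a0)
    (fun i => (cut d.p (W (j0 + v.length) (ia a0 v)) i : ℂ) * ch n b (-(d.r κ * (i : ℕ))))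
    (n - j0 - (l ++ v).length) (by omega)]
  unfold MY BZ
  rw [div_eq_inv_mul]

theorem dMZ_eq (κ : ι) (v : Node) :
    H316.dMZ d j0 a0 Y W κ v =
      (MY d j0 a0 Y W κ v (true :: v) - MY d j0 a0 Y W κ v (false :: v)) / 2 := by
  unfold H316.dMZ MY dZ H316.bt
  rw [ia_true, ia_false, List.length_cons, List.length_cons, ← add_assoc]
  ring

/-- the mean over the two children -/
theorem MZ_mart (κ : ι) {v w : Node} (hw : w.length < n - j0) :
    MY d j0 a0 Y W κ v w =
      (MY d j0 a0 Y W κ v (true :: w) + MY d j0 a0 Y W κ v (false :: w)) / 2 := by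
  unfold MY BZ
  rw [ia_true, ia_false, List.length_cons, List.length_cons, ← add_assoc,
    avC_mart (n := n) (j := j0 + w.length) (by omega)]
  ring

theorem norm_ch (x : ZMod (2 ^ (n + b))) : ‖ch n b x‖ = 1 := by
  unfold ch
  exact AddChar.norm_apply _ _

theorem norm_MZ_le (hF : Fam d s0 j0 a0 Y W) (κ : ι) (v : Node) :
    ‖MY d j0 a0 Y W κ v v‖ ≤ dpY d.p n j0 a0 Y W v := by
  have hB := B_pos hF
  unfold MY BZ dpY
  rw [norm_div, Complex.norm_real, Real.norm_of_nonneg (by linarith)]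
  refine div_le_div_of_nonneg_right ?_ (by linarith)
  refine norm_avC_le fun i _ => ?_
  rw [norm_mul, Complex.norm_real, Real.norm_of_nonneg (cut_nonneg d.p_nonneg _ _), norm_ch,
    mul_one]

theorem norm_MZ_child_le (hF : Fam d s0 j0 a0 Y W) (κ : ι) (c : Bool) (v : Node) :
    ‖MY d j0 a0 Y W κ v (c :: v)‖ ≤ arY d.p n j0 a0 Y W (c :: v) := by
  have hB := B_pos hF
  unfold MY BZ arY
  rw [norm_div, Complex.norm_real, Real.norm_of_nonneg (by linarith), arr_cons, cut_inter_nd]
  refine div_le_div_of_nonneg_right ?_ (by linarith)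
  refine norm_avC_le fun i _ => ?_
  rw [norm_mul, Complex.norm_real, Real.norm_of_nonneg (cut_nonneg d.p_nonneg _ _), norm_ch,
    mul_one]

theorem norm_dMZ_le (hF : Fam d s0 j0 a0 Y W) (κ : ι) {v : Node} (hv : v.length < n - j0) :
    ‖H316.dMZ d j0 a0 Y W κ v‖ ≤ dpY d.p n j0 a0 Y W v := by
  rw [dMZ_eq, norm_div, Complex.norm_ofNat, ← arY_mart hF hv]
  have h1 := norm_MZ_child_le hF κ true v
  have h2 := norm_MZ_child_le hF κ false v
  have h3 := norm_sub_le (MY d j0 a0 Y W κ v (true :: v))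
    (MY d j0 a0 Y W κ v (false :: v))
  linarith

theorem kerL_eq (J : List (Un n b)) (q : Fin J.length → ZMod (2 ^ (n + b))) (i : ℕ) :
    kerL J q (i : ZMod (2 ^ (n + b))) = H120.kerJ J i q := rfl

/-- **E1-C in the letters of 316 / 120** : `g q j y = fY j y * kerJ J (ia a0 y) q` with the
density `fY` of this folder (= `gY` on the levels `≤ n - j0`, `fY_eq`). -/
theorem y_energy_Z {A c : ℝ} {J : List (Un n b)} (hE : Epoch d A c s0 J j0 a0 Y W) :
    S (n - j0) (fun v => ∑ q : H120.QJ J, ((Lf (n - j0 - (true :: v).length)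
            (fun y => fY d.p n j0 a0 Y W ((true :: v).length - 1) y *
              H120.kerJ J (ia a0 y) q) (true :: v) -
          Lf (n - j0 - (false :: v).length)
            (fun y => fY d.p n j0 a0 Y W ((false :: v).length - 1) y *
              H120.kerJ J (ia a0 y) q) (false :: v)) / 2) ^ 2 /
        Lf (n - j0 - v.length) (fun y => fY d.p n j0 a0 Y W v.length y *
          H120.kerJ J (ia a0 y) q) v) [] ≤
      4 + J.length * |ep c D * D| := y_energy_epoch hE

end Vale.Agent.P091.T.H587
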